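import Vale.Agent.Lib.P183.Closure

/-! Certificates for congruence lattices of unary algebras on an initial segment of the natural
numbers.  All maps are stored as big natural numbers (twelve bits per entry), so that the kernel can
evaluate the checks with its fast arithmetic. -/

namespace Vale.Agent.Lib.P183.Cert

/-- Entry `i` of a table with twelve bit entries. -/
def get (t i : Nat) : Nat := Nat.land (Nat.shiftRight t (Nat.mul 12 i)) 4095

theorem get_lt (t i : Nat) : get t i < 4096 :=
  Nat.lt_succ_of_le (Nat.and_le_right)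

/-- All numbers below `n` satisfy `p`. -/
def allN (p : Nat → Bool) : Nat → Bool
  | 0 => true
  | n + 1 => and (p n) (allN p n)

theorem allN_spec {p : Nat → Bool} {n : Nat} (h : allN p n = true) :
    ∀ i, i < n → p i = true := by
  induction n with
  | zero => intro i hi; exact absurd hi (Nat.not_lt_zero i)
  | succ n ih =>
    have h' : and (p n) (allN p n) = true := h
    rw [Bool.and_eq_true] at h'
    intro i hi
    rcases Nat.lt_succ_iff_lt_or_eq.1 hi with hi | rfl
    · exact ih h'.2 i hi
    · exact h'.1

/-- Some number below `n` satisfies `p`. -/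
def anyN (p : Nat → Bool) : Nat → Bool
  | 0 => false
  | n + 1 => or (p n) (anyN p n)

theorem anyN_spec {p : Nat → Bool} {n : Nat} (h : anyN p n = true) :
    ∃ i, i < n ∧ p i = true := by
  induction n with
  | zero => exact absurd h (by simp [anyN])
  | succ n ih =>
    have h' : or (p n) (anyN p n) = true := h
    rw [Bool.or_eq_true] at h'
    rcases h' with h' | h'
    · exact ⟨n, Nat.lt_succ_self n, h'⟩
    · obtain ⟨i, hi, hp⟩ := ih h'
      exact ⟨i, Nat.lt_succ_of_lt hi, hp⟩

/-- Evaluate a number before passing it on. -/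
def forceN {β : Type} (n : Nat) (g : Nat → β) : β :=
  match n with
  | 0 => g 0
  | m + 1 => g (Nat.succ m)

theorem forceN_eq {β : Type} (n : Nat) (g : Nat → β) : forceN n g = g n := by
  cases n <;> rfl

/-- Entry `i` of a list of numbers, or `0`. -/
def nth : List Nat → Nat → Nat
  | [], _ => 0
  | x :: _, 0 => x
  | _ :: l, i + 1 => nth l i

theorem nth_mem_or {l : List Nat} {i : Nat} : nth l i ∈ l ∨ nth l i = 0 := by
  induction l generalizing i with
  | nil => exact Or.inr rfl
  | cons x l ih =>
    cases i with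
    | zero => exact Or.inl (List.mem_cons_self ..)
    | succ i =>
      rcases ih (i := i) with h | h
      · exact Or.inl (List.mem_cons_of_mem _ h)
      · exact Or.inr h

theorem nth_mem {l : List Nat} {i : Nat} (h : i < l.length) : nth l i ∈ l := by
  induction l generalizing i with
  | nil => exact absurd h (Nat.not_lt_zero i)
  | cons x l ih =>
    cases i with
    | zero => exact List.mem_cons_self ..
    | succ i => exact List.mem_cons_of_mem _ (ih (Nat.lt_of_succ_lt_succ h))

/-- The first `a` from `a₀` on, within `fuel` steps, with `p a`. -/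
def firstIdx (p : Nat → Bool) : Nat → Nat → Nat
  | 0, a => a
  | f + 1, a => cond (p a) a (firstIdx p f (a + 1))

/-- Equality test. -/
abbrev eqb (a b : Nat) : Bool := Nat.beq a b

theorem eqb_spec {a b : Nat} (h : eqb a b = true) : a = b := Nat.eq_of_beq_eq_true h

theorem eqb_self (a : Nat) : eqb a a = true := Nat.beq_refl a

/-- Strict comparison test. -/
abbrev ltb (a b : Nat) : Bool := Nat.blt a b

theorem ltb_spec {a b : Nat} (h : ltb a b = true) : a < b := by
  have : Nat.ble (a + 1) b = true := h
  exact Nat.le_of_ble_eq_true this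

/-- The unary operation read from the table `t`. -/
def tableOp (k : Nat) [NeZero k] (t : Nat) : Fin k → Fin k := fun x => Fin.ofNat k (get t x.val)

/-- The unary algebra on `Fin k` attached to a list of tables. -/
def algOf (k : Nat) [NeZero k] (ops : List Nat) : FinAlg (Fin k) :=
  ⟨ops.map fun t => unaryOp (tableOp k t)⟩

/-- A relation on the natural numbers read off from an equivalence relation on `Fin k`. -/
def rel {k : Nat} [NeZero k] (θ : Setoid (Fin k)) (x y : Nat) : Prop :=
  θ.r (Fin.ofNat k x) (Fin.ofNat k y)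

section Rel

variable {k : Nat} [NeZero k] {θ : Setoid (Fin k)}

theorem rel_refl (x : Nat) : rel θ x x := θ.refl' _

theorem rel_symm {x y : Nat} (h : rel θ x y) : rel θ y x := θ.symm' h

theorem rel_trans {x y z : Nat} (h1 : rel θ x y) (h2 : rel θ y z) : rel θ x z := θ.trans' h1 h2

theorem rel_op {ops : List Nat} (hθ : (algOf k ops).Compat θ) {t : Nat} (ht : t ∈ ops)
    {x y : Nat} (hx : x < k) (hy : y < k) (h : rel θ x y) : rel θ (get t x) (get t y) := by
  have hmem : unaryOp (tableOp k t) ∈ (algOf k ops).ops := List.mem_map_of_mem ht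
  have h3 : θ.r (tableOp k t (Fin.ofNat k x)) (tableOp k t (Fin.ofNat k y)) :=
    hθ _ hmem (fun _ => Fin.ofNat k x) (fun _ => Fin.ofNat k y) (fun _ => h)
  have e1 : (Fin.ofNat k x).val = x := by simp [Fin.ofNat, Nat.mod_eq_of_lt hx]
  have e2 : (Fin.ofNat k y).val = y := by simp [Fin.ofNat, Nat.mod_eq_of_lt hy]
  unfold tableOp at h3
  rw [e1, e2] at h3
  exact h3

theorem rel_iff (x y : Fin k) : rel θ x.val y.val ↔ θ.r x y := by
  have e1 : Fin.ofNat k x.val = x := Fin.ofNat_val_eq_self x
  have e2 : Fin.ofNat k y.val = y := Fin.ofNat_val_eq_self y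
  show θ.r (Fin.ofNat k x.val) (Fin.ofNat k y.val) ↔ _
  rw [e1, e2]

end Rel

/-- The equivalence relation with the classes of the table `p`. -/
def partS (k : Nat) (p : Nat) : Setoid (Fin k) where
  r x y := get p x.val = get p y.val
  iseqv := ⟨fun _ => rfl, fun h => h.symm, fun h1 h2 => h1.trans h2⟩

theorem rel_partS {k : Nat} [NeZero k] {p x y : Nat} (hx : x < k) (hy : y < k) :
    rel (partS k p) x y ↔ get p x = get p y := by
  have e1 : (Fin.ofNat k x).val = x := by simp [Fin.ofNat, Nat.mod_eq_of_lt hx]
  have e2 : (Fin.ofNat k y).val = y := by simp [Fin.ofNat, Nat.mod_eq_of_lt hy]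
  show get p (Fin.ofNat k x).val = get p (Fin.ofNat k y).val ↔ _
  rw [e1, e2]

/-- Representability of the order `le` on `0, …, n-1`: some finite algebra has its congruences in
bijection with `Fin n`, the inclusion corresponding to `le`. -/
def RepT (n : Nat) (le : Nat → Nat → Bool) : Prop :=
  ∃ (α : Type) (_ : Fintype α) (_ : Nonempty α) (A : FinAlg α) (f : A.Con ≃ Fin n),
    ∀ θ₁ θ₂ : A.Con, θ₁ ≤ θ₂ ↔ le (f θ₁).val (f θ₂).val = true

/-- The data of a certificate. -/
structure Data where
  /-- Number of points. -/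
  k : Nat
  /-- Number of elements of the lattice. -/
  n : Nat
  /-- The operations, as tables. -/
  ops : List Nat
  /-- The partitions, as tables sending a point to the chosen point of its class. -/
  parts : List Nat

/-- The partition with number `a`. -/
def Data.part (d : Data) (a : Nat) : Nat := nth d.parts a

/-- The ranges of the tables. -/
def chkRange (d : Data) : Bool :=
  and (ltb 0 d.k) <| and (Nat.ble d.k 4096) <|
  and (d.ops.all fun t => allN (fun x => ltb (get t x) d.k) d.k) <|
  allN (fun a => allN (fun x =>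
      and (ltb (get (d.part a) x) d.k)
        (eqb (get (d.part a) (get (d.part a) x)) (get (d.part a) x))) d.k) d.n

/-- The partitions are compatible with the operations. -/
def chkPartOps (d : Data) : Bool :=
  allN (fun a => d.ops.all fun t => allN (fun x =>
      eqb (get (d.part a) (get t x)) (get (d.part a) (get t (get (d.part a) x)))) d.k) d.n

/-- The partitions are ordered by the table `le`. -/
def chkOrder (d : Data) (le : Nat → Nat → Bool) : Bool :=
  and (allN (fun a => allN (fun b =>
      cond (le a b)
        (allN (fun x => eqb (get (d.part b) (get (d.part a) x)) (get (d.part b) x)) d.k)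
        (anyN (fun x => not (eqb (get (d.part b) (get (d.part a) x)) (get (d.part b) x))) d.k))
      d.n) d.n) <|
  and (allN (fun a => allN (fun b => cond (le a b) (Nat.ble a b) true) d.n) d.n) <|
  and (allN (fun a => le a a) d.n) <|
  and (ltb 0 d.n) <|
  allN (fun x => eqb (get (d.part 0) x) x) d.k

/-- The checks common to all certificates. -/
def chkCommon (d : Data) (le : Nat → Nat → Bool) : Bool :=
  and (chkRange d) (and (chkPartOps d) (chkOrder d le))

/-- What remains to be shown after the common checks: every congruence is generated in the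
expected way. -/
def Compl (d : Data) (le : Nat → Nat → Bool) [NeZero d.k] : Prop :=
  ∀ θ : Setoid (Fin d.k), (algOf d.k d.ops).Compat θ →
    (∀ x y, x < d.k → y < d.k → rel θ x y →
      ∃ c, c < d.n ∧ get (d.part c) x = get (d.part c) y ∧ partS d.k (d.part c) ≤ θ) ∧
    (∀ a c, a < d.n → c < d.n → partS d.k (d.part a) ≤ θ → partS d.k (d.part c) ≤ θ →
      ∃ j, j < d.n ∧ le a j = true ∧ le c j = true ∧ partS d.k (d.part j) ≤ θ)

section Common

variable {d : Data} {le : Nat → Nat → Bool}

/-- The unpacked common checks. -/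
structure Common (d : Data) (le : Nat → Nat → Bool) : Prop where
  kpos : 0 < d.k
  kle : d.k ≤ 4096
  opsLt : ∀ t ∈ d.ops, ∀ x, x < d.k → get t x < d.k
  partLt : ∀ a, a < d.n → ∀ x, x < d.k → get (d.part a) x < d.k
  partIdem : ∀ a, a < d.n → ∀ x, x < d.k →
    get (d.part a) (get (d.part a) x) = get (d.part a) x
  partOp : ∀ a, a < d.n → ∀ t ∈ d.ops, ∀ x, x < d.k →
    get (d.part a) (get t x) = get (d.part a) (get t (get (d.part a) x))
  leT : ∀ a b, a < d.n → b < d.n → le a b = true → ∀ x, x < d.k →
    get (d.part b) (get (d.part a) x) = get (d.part b) x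
  leF : ∀ a b, a < d.n → b < d.n → le a b = false → ∃ x, x < d.k ∧
    get (d.part b) (get (d.part a) x) ≠ get (d.part b) x
  leMono : ∀ a b, a < d.n → b < d.n → le a b = true → a ≤ b
  leRefl : ∀ a, a < d.n → le a a = true
  npos : 0 < d.n
  partZero : ∀ x, x < d.k → get (d.part 0) x = x

theorem chkCommon_spec (h : chkCommon d le = true) : Common d le := by
  simp only [chkCommon, chkRange, chkPartOps, chkOrder, Bool.and_eq_true, List.all_eq_true] at h
  obtain ⟨⟨h1, h2, h3, h4⟩, h5, h6, h7, h8, h9, h10⟩ := h
  refine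
    { kpos := ltb_spec h1
      kle := Nat.le_of_ble_eq_true h2
      opsLt := fun t ht x hx => ltb_spec (allN_spec (h3 t ht) x hx)
      partLt := fun a ha x hx => by
        have := allN_spec (allN_spec h4 a ha) x hx
        rw [Bool.and_eq_true] at this
        exact ltb_spec this.1
      partIdem := fun a ha x hx => by
        have := allN_spec (allN_spec h4 a ha) x hx
        rw [Bool.and_eq_true] at this
        exact eqb_spec this.2
      partOp := fun a ha t ht x hx =>
        eqb_spec (allN_spec (List.all_eq_true.1 (allN_spec h5 a ha) t ht) x hx)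
      leT := fun a b ha hb hle x hx => by
        have := allN_spec (allN_spec h6 a ha) b hb
        rw [hle, cond_true] at this
        exact eqb_spec (allN_spec this x hx)
      leF := fun a b ha hb hle => by
        have := allN_spec (allN_spec h6 a ha) b hb
        rw [hle, cond_false] at this
        obtain ⟨x, hx, hn⟩ := anyN_spec this
        refine ⟨x, hx, fun he => ?_⟩
        rw [he, eqb_self] at hn
        exact absurd hn (by simp)
      leMono := fun a b ha hb hle => by
        have := allN_spec (allN_spec h7 a ha) b hb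
        rw [hle, cond_true] at this
        exact Nat.le_of_ble_eq_true this
      leRefl := fun a ha => allN_spec h8 a ha
      npos := ltb_spec h9
      partZero := fun x hx => eqb_spec (allN_spec h10 x hx) }

variable [NeZero d.k]

theorem compat_part (hc : Common d le) {a : Nat} (ha : a < d.n) :
    (algOf d.k d.ops).Compat (partS d.k (d.part a)) := by
  intro op hop x y hxy
  obtain ⟨t, ht, rfl⟩ := List.mem_map.1 hop
  have hxy' : get (d.part a) (x (0 : Fin 1)).val = get (d.part a) (y (0 : Fin 1)).val :=
    hxy (0 : Fin 1)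
  have hx := (x (0 : Fin 1)).isLt
  have hy := (y (0 : Fin 1)).isLt
  show get (d.part a) (Fin.ofNat d.k (get t (x (0 : Fin 1)).val)).val =
    get (d.part a) (Fin.ofNat d.k (get t (y (0 : Fin 1)).val)).val
  have e1 : (Fin.ofNat d.k (get t (x (0 : Fin 1)).val)).val = get t (x (0 : Fin 1)).val := by
    simp [Fin.ofNat, Nat.mod_eq_of_lt (hc.opsLt t ht _ hx)]
  have e2 : (Fin.ofNat d.k (get t (y (0 : Fin 1)).val)).val = get t (y (0 : Fin 1)).val := by
    simp [Fin.ofNat, Nat.mod_eq_of_lt (hc.opsLt t ht _ hy)]
  rw [e1, e2, hc.partOp a ha t ht _ hx, hc.partOp a ha t ht _ hy, hxy']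

omit [NeZero d.k] in
theorem part_le_iff (hc : Common d le) {a b : Nat} (ha : a < d.n) (hb : b < d.n) :
    partS d.k (d.part a) ≤ partS d.k (d.part b) ↔ le a b = true := by
  constructor
  · intro h
    cases hle : le a b
    · exfalso
      obtain ⟨x, hx, hn⟩ := hc.leF a b ha hb hle
      apply hn
      have hlt := hc.partLt a ha x hx
      have : (partS d.k (d.part a)).r ⟨get (d.part a) x, hlt⟩ ⟨x, hx⟩ := hc.partIdem a ha x hx
      exact h this
    · rfl
  · intro hle x y hxy
    have hxy' : get (d.part a) x.val = get (d.part a) y.val := hxy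
    show get (d.part b) x.val = get (d.part b) y.val
    rw [← hc.leT a b ha hb hle _ x.isLt, ← hc.leT a b ha hb hle _ y.isLt, hxy']

/-- The abstract completeness argument: take the last partition below `θ`. -/
theorem eq_part_of_gen (hc : Common d le) {θ : Setoid (Fin d.k)}
    (h1 : ∀ x y, x < d.k → y < d.k → rel θ x y →
      ∃ c, c < d.n ∧ get (d.part c) x = get (d.part c) y ∧ partS d.k (d.part c) ≤ θ)
    (h2 : ∀ a c, a < d.n → c < d.n → partS d.k (d.part a) ≤ θ → partS d.k (d.part c) ≤ θ →
      ∃ j, j < d.n ∧ le a j = true ∧ le c j = true ∧ partS d.k (d.part j) ≤ θ) :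
    ∃ a, a < d.n ∧ θ = partS d.k (d.part a) := by
  classical
  have hex : ∃ m, m < d.n ∧ partS d.k (d.part m) ≤ θ := by
    refine ⟨0, hc.npos, fun x y hxy => ?_⟩
    have hxy' : get (d.part 0) x.val = get (d.part 0) y.val := hxy
    rw [hc.partZero _ x.isLt, hc.partZero _ y.isLt] at hxy'
    rw [Fin.ext hxy']
  let P : Nat → Prop := fun m => m < d.n ∧ partS d.k (d.part m) ≤ θ
  obtain ⟨a, ha, hmax⟩ : ∃ a, P a ∧ ∀ m, P m → m ≤ a := by
    have hb : ∀ m, P m → m ≤ d.n := fun m hm => le_of_lt hm.1
    exact ⟨Nat.findGreatest P d.n, Nat.findGreatest_spec (P := P) (hb _ hex.choose_spec)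
      hex.choose_spec, fun m hm => Nat.le_findGreatest (hb m hm) hm⟩
  refine ⟨a, ha.1, ?_⟩
  apply le_antisymm _ ha.2
  intro x y hxy
  have hr : rel θ x.val y.val := (rel_iff x y).2 hxy
  obtain ⟨c, hcn, hcxy, hcle⟩ := h1 x.val y.val x.isLt y.isLt hr
  obtain ⟨j, hj, hle1, hle2, hjle⟩ := h2 a c ha.1 hcn ha.2 hcle
  have hja : j = a := le_antisymm (hmax j ⟨hj, hjle⟩) (hc.leMono a j ha.1 hj hle1)
  subst hja
  have := (part_le_iff hc hcn ha.1).2 hle2
  exact this hcxy

theorem repT_of_compl (hc : Common d le) (hcompl : Compl d le) : RepT d.n le := by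
  classical
  let g : Fin d.n → (algOf d.k d.ops).Con := fun a =>
    ⟨partS d.k (d.part a.val), compat_part hc a.isLt⟩
  have hinj : Function.Injective g := by
    intro a b hab
    have h1 : partS d.k (d.part a.val) = partS d.k (d.part b.val) := congrArg Subtype.val hab
    have h2 := (part_le_iff hc a.isLt b.isLt).1 (le_of_eq h1)
    have h3 := (part_le_iff hc b.isLt a.isLt).1 (le_of_eq h1.symm)
    exact Fin.ext (le_antisymm (hc.leMono _ _ a.isLt b.isLt h2) (hc.leMono _ _ b.isLt a.isLt h3))
  have hsurj : Function.Surjective g := by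
    intro θ
    obtain ⟨a, ha, he⟩ := eq_part_of_gen hc (hcompl θ.1 θ.2).1 (hcompl θ.1 θ.2).2
    exact ⟨⟨a, ha⟩, Subtype.ext he.symm⟩
  let e : Fin d.n ≃ (algOf d.k d.ops).Con := Equiv.ofBijective g ⟨hinj, hsurj⟩
  refine ⟨Fin d.k, inferInstance, ⟨⟨0, hc.kpos⟩⟩, algOf d.k d.ops, e.symm, fun θ₁ θ₂ => ?_⟩
  obtain ⟨a, rfl⟩ := e.surjective θ₁
  obtain ⟨b, rfl⟩ := e.surjective θ₂
  rw [Equiv.symm_apply_apply, Equiv.symm_apply_apply]
  exact part_le_iff hc a.isLt b.isLt

end Common

end Vale.Agent.Lib.P183.Cert
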