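import Vale.Agent.Lib.P183.Cert.Core

/-! Order tables of lattices on `0, …, n-1`: `0` is the bottom, `n-1` is the top, and a number `m`
encodes the relations among the other elements. -/

namespace Vale.Agent.Lib.P183.Cert

/-- The position of the pair `i < j` of inner elements in the code `m`. -/
def triIdx (i j : Nat) : Nat :=
  Nat.add (Nat.div (Nat.mul (Nat.sub j 1) (Nat.sub j 2)) 2) (Nat.sub i 1)

/-- Test of a bit. -/
def bitN (m x : Nat) : Bool := eqb (Nat.land (Nat.shiftRight m x) 1) 1

/-- The order table with code `m` on `0, …, n-1`. -/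
def leOf (n m i j : Nat) : Bool :=
  or (eqb i j) <| or (eqb i 0) <| or (eqb j (Nat.sub n 1)) <|
    and (ltb i j) (bitN m (triIdx i j))

/-- The number of bits of a code on `n` elements. -/
def tn (n : Nat) : Nat := Nat.div (Nat.mul (Nat.sub n 2) (Nat.sub n 3)) 2

/-- The table is transitive. -/
def isTransT (n m : Nat) : Bool :=
  allN (fun a => allN (fun b => cond (leOf n m a b)
    (allN (fun c => cond (leOf n m b c) (leOf n m a c) true) n) true) n) n

/-- Any two elements have a least upper bound. -/
def isJoinT (n m : Nat) : Bool :=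
  allN (fun a => allN (fun b => anyN (fun u => and (leOf n m a u) <| and (leOf n m b u) <|
    allN (fun v => cond (and (leOf n m a v) (leOf n m b v)) (leOf n m u v) true) n) n) n) n

/-- The table is the table of a lattice. -/
def isLatT (n m : Nat) : Bool := and (isTransT n m) (isJoinT n m)

theorem allN_of {p : Nat → Bool} {n : Nat} (h : ∀ i, i < n → p i = true) : allN p n = true := by
  induction n with
  | zero => rfl
  | succ n ih =>
    show and (p n) (allN p n) = true
    rw [Bool.and_eq_true]
    exact ⟨h n (Nat.lt_succ_self n), ih fun i hi => h i (Nat.lt_succ_of_lt hi)⟩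

theorem anyN_of {p : Nat → Bool} {n i : Nat} (hi : i < n) (h : p i = true) : anyN p n = true := by
  induction n with
  | zero => exact absurd hi (Nat.not_lt_zero i)
  | succ n ih =>
    show or (p n) (anyN p n) = true
    rw [Bool.or_eq_true]
    rcases Nat.lt_succ_iff_lt_or_eq.1 hi with hi | rfl
    · exact Or.inr (ih hi)
    · exact Or.inl h

theorem bitN_eq (m x : Nat) : bitN m x = Nat.testBit m x := by
  unfold bitN
  rw [Nat.testBit_eq_decide_div_mod_eq]
  have h : Nat.land (Nat.shiftRight m x) 1 = m / 2 ^ x % 2 := by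
    show (m >>> x) &&& 1 = _
    rw [Nat.and_one_is_mod, Nat.shiftRight_eq_div_pow]
  rw [h]
  cases h2 : decide (m / 2 ^ x % 2 = 1)
  · have : m / 2 ^ x % 2 ≠ 1 := of_decide_eq_false h2
    exact (Bool.eq_false_iff.2 fun h3 => this (eqb_spec h3))
  · have : m / 2 ^ x % 2 = 1 := of_decide_eq_true h2
    rw [this]
    rfl

/-- Relabelling the elements of a representable table. -/
theorem repT_relabel {n : Nat} {le le' : Nat → Nat → Bool} (h : RepT n le') (s : Nat → Nat)
    (hlt : ∀ i, i < n → s i < n) (hinj : ∀ i j, i < n → j < n → s i = s j → i = j)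
    (hle : ∀ i j, i < n → j < n → le i j = le' (s i) (s j)) : RepT n le := by
  obtain ⟨α, i1, i2, A, f, hf⟩ := h
  let σ : Fin n → Fin n := fun i => ⟨s i.val, hlt i.val i.isLt⟩
  have hσ : Function.Bijective σ := by
    refine (Finite.injective_iff_bijective).1 ?_
    intro i j hij
    exact Fin.ext (hinj _ _ i.isLt j.isLt (congrArg Fin.val hij))
  let E : Fin n ≃ Fin n := Equiv.ofBijective σ hσ
  refine ⟨α, i1, i2, A, f.trans E.symm, fun θ₁ θ₂ => ?_⟩
  rw [hf]
  have key : ∀ x : Fin n, s (E.symm x).val = x.val := by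
    intro x
    have : σ (E.symm x) = x := E.apply_symm_apply x
    exact congrArg Fin.val this
  simp only [Equiv.trans_apply]
  rw [hle _ _ (E.symm (f θ₁)).isLt (E.symm (f θ₂)).isLt, key, key]

/-- The positions of the pairs of inner elements. -/
def decPair : Nat → Nat × Nat
  | 0 => (1, 2) | 1 => (1, 3) | 2 => (2, 3) | 3 => (1, 4) | 4 => (2, 4)
  | 5 => (3, 4) | 6 => (1, 5) | 7 => (2, 5) | 8 => (3, 5) | _ => (4, 5)

theorem decPair_triIdx : ∀ j, j < 6 → ∀ i, i < j → 1 ≤ i → decPair (triIdx i j) = (i, j) := by
  decide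

theorem triIdx_lt : ∀ n, n < 8 → ∀ j, j < n → j + 1 < n → ∀ i, i < j → 1 ≤ i →
    triIdx i j < tn n := by
  decide

section Lattice

universe v

variable {L : Type v} [Lattice L] [Finite L]

theorem exists_labeling (L : Type v) [PartialOrder L] [Finite L] :
    ∃ e : Fin (Nat.card L) ≃ L, ∀ i j, e i ≤ e j → i ≤ j := by
  classical
  have : Fintype L := Fintype.ofFinite L
  let _ : Fintype (LinearExtension L) := ‹Fintype L›
  have hcard : Fintype.card (LinearExtension L) = Nat.card L := by
    rw [Nat.card_eq_fintype_card]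
    rfl
  let o : Fin (Nat.card L) ≃o LinearExtension L := Fintype.orderIsoFinOfCardEq _ hcard
  let e : Fin (Nat.card L) ≃ L := o.toEquiv
  refine ⟨e, fun i j h => ?_⟩
  have h1 : toLinearExtension (e i) ≤ toLinearExtension (e j) := toLinearExtension.monotone h
  exact o.le_iff_le.1 h1

theorem exists_bot_top [Nonempty L] : ∃ b t : L, ∀ x, b ≤ x ∧ x ≤ t := by
  classical
  have : Fintype L := Fintype.ofFinite L
  refine ⟨(Finset.univ : Finset L).inf' Finset.univ_nonempty id,
    (Finset.univ : Finset L).sup' Finset.univ_nonempty id, fun x => ⟨?_, ?_⟩⟩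
  · exact Finset.inf'_le id (Finset.mem_univ x)
  · exact Finset.le_sup' id (Finset.mem_univ x)

/-- **Reduction to tables.** If all tables of lattices on at most seven elements are representable,
then so are all lattices with at most seven elements. -/
theorem representable_of_tables
    (H : ∀ n m, 1 ≤ n → n ≤ 7 → m < 2 ^ tn n → isLatT n m = true → RepT n (leOf n m))
    [Nonempty L] (hcard : Nat.card L ≤ 7) : Representable L := by
  classical
  obtain ⟨e, he⟩ := exists_labeling L
  have hn : 1 ≤ Nat.card L := by
    have : 0 < Nat.card L := Nat.card_pos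
    omega
  generalize hN : Nat.card L = n at e he hn hcard
  obtain ⟨b, t, hbt⟩ := exists_bot_top (L := L)
  have h0 : 0 < n := hn
  have hfirst : ∀ x, e ⟨0, h0⟩ ≤ x := by
    intro x
    have h1 : e (e.symm b) ≤ e ⟨0, h0⟩ := by
      rw [e.apply_symm_apply]
      exact (hbt _).1
    have h2 := he _ _ h1
    have h3 : e.symm b = ⟨0, h0⟩ := Fin.ext (by
      show (e.symm b).val = 0
      exact Nat.le_zero.1 h2)
    rw [← h3, e.apply_symm_apply]
    exact (hbt x).1
  have hlast : ∀ x, x ≤ e ⟨n - 1, by omega⟩ := by
    intro x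
    have h1 : e ⟨n - 1, by omega⟩ ≤ e (e.symm t) := by
      rw [e.apply_symm_apply]
      exact (hbt _).2
    have h2 := he _ _ h1
    have h3 : e.symm t = ⟨n - 1, by omega⟩ := Fin.ext (by
      have h4 : n - 1 ≤ (e.symm t).val := h2
      have h5 := (e.symm t).isLt
      show (e.symm t).val = n - 1
      omega)
    rw [← h3, e.apply_symm_apply]
    exact (hbt x).2
  -- the code of the table
  let B : Nat → Nat → Bool := fun i j =>
    if h : i < n ∧ j < n then decide (e ⟨i, h.1⟩ ≤ e ⟨j, h.2⟩) else false
  let m : Nat := Nat.ofBits (fun k : Fin (tn n) => B (decPair k.val).1 (decPair k.val).2)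
  have hm : m < 2 ^ tn n := Nat.ofBits_lt_two_pow _
  have hB : ∀ i j (hi : i < n) (hj : j < n), leOf n m i j = true ↔ e ⟨i, hi⟩ ≤ e ⟨j, hj⟩ := by
    intro i j hi hj
    have hbit : ∀ hij : i < j, i ≠ 0 → j ≠ n - 1 →
        (bitN m (triIdx i j) = true ↔ e ⟨i, hi⟩ ≤ e ⟨j, hj⟩) := by
      intro hij hi0 hjn
      have hj6 : j < 6 := by omega
      have hdec := decPair_triIdx j hj6 i hij (by omega)
      have hlt := triIdx_lt n (by omega) j hj (by omega) i hij (by omega)
      rw [bitN_eq, Nat.testBit_ofBits_lt _ _ hlt]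
      show B (decPair (triIdx i j)).1 (decPair (triIdx i j)).2 = true ↔ _
      rw [hdec]
      show (if h : i < n ∧ j < n then decide (e ⟨i, h.1⟩ ≤ e ⟨j, h.2⟩) else false) = true ↔ _
      rw [dif_pos ⟨hi, hj⟩, decide_eq_true_iff]
    unfold leOf
    simp only [Bool.or_eq_true, Bool.and_eq_true]
    constructor
    · rintro (h | h | h | ⟨h, h'⟩)
      · have := eqb_spec h
        subst this
        exact le_rfl
      · have := eqb_spec h
        subst this
        exact hfirst _
      · have h1 := eqb_spec h
        subst h1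
        exact hlast _
      · have hij := ltb_spec h
        by_cases hi0 : i = 0
        · subst hi0
          exact hfirst _
        · by_cases hjn : j = n - 1
          · subst hjn
            exact hlast _
          · exact (hbit hij hi0 hjn).1 h'
    · intro hle
      have hij : i ≤ j := he _ _ hle
      rcases Nat.lt_or_eq_of_le hij with hlt | heq
      · by_cases hi0 : i = 0
        · exact Or.inr (Or.inl (by rw [hi0]; exact eqb_self 0))
        · by_cases hjn : j = n - 1
          · exact Or.inr (Or.inr (Or.inl (by rw [hjn]; exact eqb_self _)))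
          · refine Or.inr (Or.inr (Or.inr ⟨?_, (hbit hlt hi0 hjn).2 hle⟩))
            exact Nat.ble_eq_true_of_le hlt
      · exact Or.inl (by rw [heq]; exact eqb_self _)
  -- the table is the table of a lattice
  have hlat : isLatT n m = true := by
    unfold isLatT
    rw [Bool.and_eq_true]
    constructor
    · refine allN_of fun a ha => allN_of fun c hc => ?_
      cases h1 : leOf n m a c
      · rfl
      · rw [cond_true]
        refine allN_of fun d hd => ?_
        cases h2 : leOf n m c d
        · rfl
        · rw [cond_true]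
          exact (hB a d ha hd).2 (le_trans ((hB a c ha hc).1 h1) ((hB c d hc hd).1 h2))
    · refine allN_of fun a ha => allN_of fun c hc => ?_
      let u := e.symm (e ⟨a, ha⟩ ⊔ e ⟨c, hc⟩)
      have hu : e u = e ⟨a, ha⟩ ⊔ e ⟨c, hc⟩ := e.apply_symm_apply _
      refine anyN_of u.isLt ?_
      rw [Bool.and_eq_true, Bool.and_eq_true]
      refine ⟨(hB a u.val ha u.isLt).2 ?_, (hB c u.val hc u.isLt).2 ?_, ?_⟩
      · have : e ⟨u.val, u.isLt⟩ = e u := rfl
        rw [this, hu]
        exact le_sup_left
      · have : e ⟨u.val, u.isLt⟩ = e u := rfl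
        rw [this, hu]
        exact le_sup_right
      · refine allN_of fun d hd => ?_
        cases h1 : and (leOf n m a d) (leOf n m c d)
        · rfl
        · rw [cond_true]
          rw [Bool.and_eq_true] at h1
          refine (hB u.val d u.isLt hd).2 ?_
          have : e ⟨u.val, u.isLt⟩ = e u := rfl
          rw [this, hu]
          exact sup_le ((hB a d ha hd).1 h1.1) ((hB c d hc hd).1 h1.2)
  obtain ⟨α, i1, i2, A, f, hf⟩ := H n m hn hcard hm hlat
  refine ⟨α, i1, i2, A, ⟨?_⟩⟩
  refine
    { toEquiv := f.trans e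
      map_rel_iff' := ?_ }
  intro θ₁ θ₂
  rw [hf, Equiv.trans_apply, Equiv.trans_apply]
  exact (hB _ _ (f θ₁).isLt (f θ₂).isLt).symm

end Lattice

end Vale.Agent.Lib.P183.Cert
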