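import Vale.Agent.Lib.P183.Cert.Trans
import Vale.Agent.Lib.P183.Cert.Table

/-! Generated: an algebra for lattice 1 on 6 elements. -/

namespace Vale.Agent.Lib.P183.Cert

/-- Data for lattice 1 on 6 elements. -/
def dT6_1 : TData :=
  ⟨⟨12, 6, [10902329644496036637378667440532514435076, 10902329644496036637378667440532514435076, 54453156671631962045823981824490791260161, 38126247901886126182938685398882617131011, 59902991779343962382269386197061116891136, 59902991779343962382269386197061116891136, 32669767952823896953223789381256722022411, 10634797601342602048650461338627219461, 27227906590414493600504215135921008316416],
    [59902991779343962382269386197061116891136, 5451165633544392788627804020583532859392, 10889036066384822020619736169804451549184, 27226577687016471134418070500104443269120, 1329877191367900568000445644911153152, 0]⟩,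
   8, 38115613753242836853616497596945506775040, 5447176975922187584113897411449198743552, [27227906590414493600504215135921008316416], [[], [2], [10], [6], [11], [9]],
   5445847423328601495041002480784931553280, 5445847423328601495041002480784931553280, [[], [17], [], [17, 2, 4100, 4, 4], [17], [17], [], [], [], [], [], [], [], [], [], [2048, 4096], [2048, 17], [2048, 4096], [], [], [2048, 17], [], [2048, 2048], [2048], [], [], [2065, 2048], [2065, 2], [], [], [], [], [2065, 2], [2], [], [], [], [], [], [], [], [], []], 28339964630847004348416, 7⟩

theorem rep6_1 : RepT 6 (leOf 6 32) :=
  TData.repT_of_trans (T := dT6_1) (by decide +kernel) (by decide +kernel)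

end Vale.Agent.Lib.P183.Cert
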