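import Vale.Agent.Lib.P183.Cert.Trans
import Vale.Agent.Lib.P183.Cert.Table

/-! Generated: an algebra for lattice 3 on 6 elements. -/

namespace Vale.Agent.Lib.P183.Cert

/-- Data for lattice 3 on 6 elements. -/
def dT6_3 : TData :=
  ⟨⟨12, 6, [54455813505743701000629429068144633200641, 43570766421737399673418293553169287872516, 49008639774531700382677428997375995695106, 49008639774531700382677428997375995695106, 38118272533356916221676061281395998220291, 38118272533356916221676061281395998220291, 10889036390665633167783236719285232476160],
    [59902991779343962382269386197061116891136, 21778073754649300842297316390145630408704, 32679073197276843519875356181586247684096, 16337542269985746470850765388969502834688, 5449836080792389060152609208628269813760, 0]⟩,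
   6, 21783389693314367313429554029768841629696, 16337541945388003330815941577830651924480, [], [[], [10], [2], [4, 2], [3, 8], [9, 11]],
   0, 0, [[], [13, 2050, 4], [], [13, 2], [13], [13, 2], [0, 2, 4109, 2048], [13, 2048], [13, 2], [13, 2], [], [13, 2048], [], [], [], [], [], [], [], [], [2048, 4], [4096, 6], [4109, 2, 8196, 10], [], [], [2, 2], [], [], [], [], [], [2052, 4], [], [], [4, 8194], [], [], [4098, 2048, 2056], [], [4096, 6148], [], [], [], [], [], [], [], []], 59902991779343962382269386197061116891136, 12⟩

theorem rep6_3 : RepT 6 (leOf 6 20) :=
  TData.repT_of_trans (T := dT6_3) (by decide +kernel) (by decide +kernel)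

end Vale.Agent.Lib.P183.Cert
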