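import Vale.Agent.Lib.P183.Cert.Trans
import Vale.Agent.Lib.P183.Cert.Table

/-! Generated: an algebra for lattice 0 on 7 elements. -/

namespace Vale.Agent.Lib.P183.Cert

/-- Data for lattice 0 on 7 elements. -/
def dT7_0 : TData :=
  ⟨⟨16, 7, [16861193033324099278850368560239161109175761864033828865, 16861193033324099278850368560239161109175761864033828865, 9199838036417448479606629986393264016899286346974117890, 18393689213529997787372619492189782142389388661173030915, 13795453571454740950210265262691437848088182281052639235, 13795453571454740950210265262691437848088182281052639235, 16858948258242138092058899920642656422828963380057927680],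
    [22992672322594276008166815275849830383261464564621905920, 2619650407965555200609271504069606387795569040949248, 12262957573713441653409803949492218733472050646798569472, 9194973428016853178069749259478984782374752828973387776, 4597861041070708253554283082415148484509868829567881216, 3066113514989264186370267199441237869631535368128958464, 0]⟩,
   6, 6131479106515607949618531458161744231475657203706232832, 4598983474372768992345116154566635643995553210652692480, [16858948258242138092058899920642656422828963380057927680], [[], [1], [2], [4], [10], [8], [6, 12]],
   1532869776651204093732793430712654843003172895630295040, 3065365317539393697289995599558158172774265108666777600, [[], [], [], [], [9], [], [], [], [], [], [], [], [], [], [], [2057, 2052, 2, 8198], [2, 4105, 4096], [2057, 2, 6157], [2061, 2048], [], [], [2, 4105, 2], [], [2057, 2061, 2, 8198, 6], [9, 4105, 2, 8205], [2061, 2], [], [], [2048, 4096], [9, 4109, 2, 6157, 10249, 2], [], [2057, 2048, 6157], [2061, 4105, 6148, 2], [], [], [2061, 2048, 4109], [2057, 2057, 2, 6157], [2061, 2, 4109], [], [2061, 2061], [], [], [13, 2057, 6157, 2], [13, 4098, 6153, 2], [13, 4109, 4], [13, 4109], [], [], [], [], [], [], [], [], []], 396140831460788463871264296960, 6⟩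

theorem rep7_0 : RepT 7 (leOf 7 0) :=
  TData.repT_of_trans (T := dT7_0) (by decide +kernel) (by decide +kernel)

end Vale.Agent.Lib.P183.Cert
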