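import Vale.Agent.Lib.P183.Cert.Trans
import Vale.Agent.Lib.P183.Cert.Table

/-! Generated: an algebra for lattice 10 on 7 elements. -/

namespace Vale.Agent.Lib.P183.Cert

/-- Data for lattice 10 on 7 elements. -/
def dT7_10 : TData :=
  ⟨⟨32, 7, [269401322541059269468858678221656447355383977172216735483141373800467294046501811554572556739171010103691576360961, 211697638162942497495596417081189035499270299241745871033070812136213788957890071891237051114466373491041790590986, 144334397567242439141174553121547888436653846668414024132646348112902613005444023973361684278613893323338415099906, 230934553898410955541732872052004452607123456933480236586386080641840340616577260686488480894867848994676644302856, 86635402245645637450137291356424727042672379693178209337940634704219589080551892378546541300705870682644694458371, 192432545647847974872061528618515676386979343794870147233245077153910776408576911636068450731062735942762736185346, 96266766778100848184814805587893380993650211653593341214421784905882335523136371967733188131268917520392656121856, 17201239619925536337081156714765652055977396787700478195694454259147505366329432905870226293441742315192320],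
    [298279015899558905131547628229585853135292148586454231048974413116360009276683760913671046197385401423550658646016, 144308549836159567991989906379623750377719198455752493561883750265189372921461272509930994488850752301998945603584, 38478525691189175567042334146826061718778949464842757568404714381620495083417117088796902668227574735906403258368, 4013622817271585178563762672075528202750353975680930687353814347199678127014916842467860175889482400137216, 19239262558627190127068681607480152689823061827338614218063910481659601099470797357750710401105522412493735989248, 38478521676446588410029511952536010618310895127402379529155944168401869849220709463003719511766934728713950990336, 0]⟩,
   6, 48102849180653620266412717243442980314681397790902669696753568821038320290631146557510991279195092127839619649536, 28865938605557150758710050922476656816668075225382529405348369831352523060427029037600404578655852349346637942784, [96266766778100848184814805587893380993650211653593341214421784905882335523136371967733188131268917520392656121856], [[], [8], [30], [1], [9], [7], [17]],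
   9619630992556293129477614817362579113541547216116314524325847501623047179236033458597547690850301273691998126080, 19239261411737898085644776500013933222886698266572880098122662358619188622504035261657805729940674453362379325440, [[], [], [11, 11], [15, 2059, 2], [11], [11, 11, 4111, 2], [], [11, 11, 15, 6], [11, 11, 15, 6144], [], [15, 2059, 2], [], [], [], [], [], [], [], [], [], [], [2048], [2048, 2048], [2048, 2048], [2048, 2048], [], [], [2], [], [], [], [], [], [], [2048, 4096], [], [], [2059, 4098, 2], [2048, 4], [], [], [2048, 4096], [], [2059, 2052, 2], [], [11, 4098, 2], [], [], [2059, 2], [], [2, 2], [2059, 4098, 2], [], [], [], [], [], [], [], [], []], 25833968410512165506784286564682707301132509091345834341725362265891062727475483612171114358093458887220924416, 12⟩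

theorem rep7_10 : RepT 7 (leOf 7 148) :=
  TData.repT_of_trans (T := dT7_10) (by decide +kernel) (by decide +kernel)

end Vale.Agent.Lib.P183.Cert
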