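import Vale.Agent.Lib.P183.Cert.Trans
import Vale.Agent.Lib.P183.Cert.Table

/-! Generated: an algebra for lattice 15 on 7 elements. -/

namespace Vale.Agent.Lib.P183.Cert

/-- Data for lattice 15 on 7 elements. -/
def dT7_15 : TData :=
  ⟨⟨12, 7, [49009968678088295155114071411664923668481, 38123591717207596648319952482739211468806, 43564119957319168974013297129331412189186, 43564119957319168974013297129331412189186, 59902989183036980085206207052031262232576, 59902991454904617548266176400301473406976],
    [59902991779343962382269386197061116891136, 27227908862440509998443872673205304954880, 54458473259413383324971103267744559140864, 16333554261321401077867546705067667099648, 3988008664480816291461593267118804992, 324597801168476471437686021820416, 0]⟩,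
   4, 5447176326726623932787182485617036496896, 21780730912725034989388770243169073762304, [59902989183036980085206207052031262232576, 59902991454904617548266176400301473406976], [[], [3], [4], [5], [11], [5, 11], [9]],
   324677029330990735775279582543872, 324677048683248582575085651492864, [[], [9], [], [], [], [0, 2], [], [], [], [], [], [], [], [], [], [], [2048, 4], [2048, 4], [2], [], [], [], [2048, 4, 4102], [], [2048], [2048], [], [], [], [2048, 2], [2048], [], [], [], [], [], [2048], [2], [], [], [], [], [], [], [], [], [], [], [], [], [], [], [], [], [], []], 32673753364389017071853093879331946500096, 7⟩

theorem rep7_15 : RepT 7 (leOf 7 960) :=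
  TData.repT_of_trans (T := dT7_15) (by decide +kernel) (by decide +kernel)

end Vale.Agent.Lib.P183.Cert
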