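import Vale.Agent.Lib.P183.Cert.Trans
import Vale.Agent.Lib.P183.Cert.Table

/-! Generated: an algebra for lattice 18 on 7 elements. -/

namespace Vale.Agent.Lib.P183.Cert

/-- Data for lattice 18 on 7 elements. -/
def dT7_18 : TData :=
  ⟨⟨24, 7, [2428751280612925878406095019561760681573992758279622387887712677287606125538419159041, 2550286599589202142218723775993393209628027799305936796983286255152344359844297310216, 2307601093367759477829252207759932454867911548809131533715677099171225085484057247746, 2671614498723894940116913512775711356207323350165624236654274857146714401298922393621, 1579041031118862516877105804932556609526437541724100585741481376600054184643609542656, 1578477767734237750010586591549054956551027492175402277797568482646309361012986433536],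
    [2793238825633532367252271474308146955712771738768198951305317941842494364855943827456, 364309710091390665717734341625857452023793180652153363675350839636599244844890591232, 485696880319425971372749348981109016774738379476488001099764797051430122811763462144, 1578655667794736061031493553597942564454548490822101215669773765911801865952697520128, 207550084719590687999339910770085845727302710624831882247439085689556472189423616, 29650013617608702215706885168799320411294966412661629858763974161459261269348352, 0]⟩,
   4, 121505748564420327710504790868940138286008431420634668361484877023854630827963977728, 242922547095057805517782883545493513367836163634083532960573222758867191576595009536, [1579041031118862516877105804932556609526437541724100585741481376600054184643609542656, 1578477767734237750010586591549054956551027492175402277797568482646309361012986433536], [[], [15], [18], [14], [23], [3], [2]],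
   121446463014731684431428973400961570170670712766449733474538806560783551266675490816, 121476098554338569828266926749993958077357224576593237011690179604563450940941664256, [[], [11, 2050, 2], [], [9], [0, 2], [9], [9], [], [], [], [], [], [], [], [], [], [], [9, 4], [2048, 9], [2057, 2057, 2], [], [], [], [2057, 2], [], [2048, 2048], [9, 4105, 2], [], [], [], [2057, 2048], [2057, 2], [], [], [], [], [], [9, 4105, 2], [2057, 2057, 2], [], [], [], [], [], [], [], [], [], [], [], [], [], [], [], [], [], []], 2619558997210977118015329602063464222300731114262528, 8⟩

theorem rep7_18 : RepT 7 (leOf 7 992) :=
  TData.repT_of_trans (T := dT7_18) (by decide +kernel) (by decide +kernel)

end Vale.Agent.Lib.P183.Cert
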