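import Vale.Agent.Lib.P183.Cert.Trans
import Vale.Agent.Lib.P183.Cert.Table

/-! Generated: an algebra for lattice 24 on 7 elements. -/

namespace Vale.Agent.Lib.P183.Cert

/-- Data for lattice 24 on 7 elements. -/
def dT7_24 : TData :=
  ⟨⟨24, 7, [2428840158287255330400047001160748386441644729864384455030596765024724996012732579841, 2428840158287255330400047001160748386441644729864384455030596765024724996012732579841, 2185680425573169433512196935880176035147082727617412417477398582158437879473888047106, 2064560127153973479055848018448606715861994108546091154060312944750058690399854186506, 1329227995784915872903807060297121792, 101318078084126403033127781449045429535391473159072307223021744199795193413632],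
    [2793238825633532367252271474308146955712771738768198951305317941842494364855943827456, 1457416762110566369152478122682766235686328729774780560997992509667917610519288090624, 2428899458305657175619948987771071040538829076582350189453501056891059992377413337088, 971393731676689680588411089254186269152344131242989178539021683045802855442556125184, 237156672772629316807015153493842585734527800758241022014106545625957318971621376, 118585573391892095900892741972971666068383885260025243200604080073825420583108608, 0]⟩,
   4, 242892897081440196604916876038932582816901497838840960014029401885797418388647051264, 728619434640885252635982784742604707896552933656408140319249883673435868143399473152, [], [],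
   0, 0, [], 0, 0⟩

theorem rep7_24 : RepT 7 (leOf 7 724) :=
  TData.repT_of_hybrid (T := dT7_24) (by decide +kernel) (by decide +kernel)

end Vale.Agent.Lib.P183.Cert
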