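import Vale.Agent.Lib.P183.Cert.Trans
import Vale.Agent.Lib.P183.Cert.Table

/-! Generated: an algebra for lattice 25 on 7 elements. -/

namespace Vale.Agent.Lib.P183.Cert

/-- Data for lattice 25 on 7 elements. -/
def dT7_25 : TData :=
  ⟨⟨24, 7, [2307364066962860126059975430931529137783538920119959359014509339138926875582387978241, 2307364066962860126059975430931529137783538920119959359014509339138926875582387978241, 2550257014690965395087950694588215384894932984444288298386770810321279730009400950786, 2550257014690965395087950694588215384894932984444288298386770810321279730009400950786, 2671851525123492456193063077580982576103985691247368507460502848816578456648037715971, 2671851604732320653912854376936260520316231507594098983948420940346594158815203053571, 2793238717050179154231704050496634448005611626286938769071896300643909131514255773696, 121446455777725244380873410607301952018956690908704757200185937004847505519899840512],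
    [2793238825633532367252271474308146955712771738768198951305317941842494364855943827456, 121565048598722071287938725488182174403230430501696248584738926111411124052516933632, 2671821990914332876873806847605421976026570359858681040209924080136037326405404459008, 1700250322970912676924637103110163282832027197119185306079903753209761546112400883712, 971571704131982643458459499441640713832619683571650980204682965835970841743588327424, 14477544848794132631177159479732340904706994525891642564136698344219569291264, 0]⟩,
   6, 242892926032996200274172801212236812932004770435025980215223717884981508347814477824, 364369002872783481363063825659968860005912784468675338377629248167634409109915176960, [2793238717050179154231704050496634448005611626286938769071896300643909131514255773696], [[], [19], [1], [8, 1], [14, 18], [15, 22], [21, 16]],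
   7238772424397066315588579739866170452352168034950036361473078600704865599488, 7238772424397066315588579739957514310129867662591355080171680625564468641792, [[], [], [9, 2063, 2048], [15, 2048], [15, 2057, 4100, 2, 6], [0, 2, 4111], [15, 2057, 2], [15], [15, 2057, 2, 6150, 2, 8], [15, 2], [15, 2], [15, 2], [15, 2], [], [15, 2048], [15, 2050, 4, 4], [], [], [], [], [], [], [], [], [], [2048, 4], [2048, 6146], [4096, 6, 8207, 6], [], [], [], [2, 2], [], [], [], [], [], [], [4096, 4102], [], [], [6144, 2, 8196], [], [], [], [4098, 6, 4098], [], [4096, 8198, 2, 6154], [], [], [], [], [], [], [], [], [], [], [], [], [], [], [], [], []], 1821667085309453154164047883429944835947074014794480780168848052448808267908114288640, 16⟩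

theorem rep7_25 : RepT 7 (leOf 7 980) :=
  TData.repT_of_trans (T := dT7_25) (by decide +kernel) (by decide +kernel)

end Vale.Agent.Lib.P183.Cert
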