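import Vale.Agent.Lib.P183.Cert.Trans
import Vale.Agent.Lib.P183.Cert.Table

/-! Generated: an algebra for lattice 39 on 7 elements. -/

namespace Vale.Agent.Lib.P183.Cert

/-- Data for lattice 39 on 7 elements. -/
def dT7_39 : TData :=
  ⟨⟨24, 7, [1579100374566363921431358409592200930129190893635497112453427192268178654893044674561, 2671673784273580132838572832909576126450212708241969870373465165635790259174974160911, 850480889285880553588272265345419190840801305978283289187426360162345366718638997506, 2186065817824119484677327043691133963134030714706776574131977912424467480458282680331, 2793149897287797236555850299369631032599691396321509433182725722419749813505281232896, 1457327862728752152801689629370756302109251727353256008892574577674497612081489043456],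
    [2793238825633532367252271474308146955712771738768198951305317941842494364855943827456, 1457564947038540278234030803484676941072974531592206249899318387570145867366347575296, 121416834717430917877176702871324057252048007596304591409035207250860435512085188608, 364280060070703079548067866058346859165526688794226753233362614450604040767731142656, 88964516630828046600252390291637770903461959010072767692014954864101067570810880, 88950035552285017649970348620445148463904343311288449869198503377283754907144192, 0]⟩,
   4, 242863276014078050272258215095075810723206079444150201338548378207180886712663412736, 485785815870363431498235640147393394486442971134123263742932534847703225640306085888, [2793149897287797236555850299369631032599691396321509433182725722419749813505281232896, 1457327862728752152801689629370756302109251727353256008892574577674497612081489043456], [[], [6], [2], [13], [12], [4], [18]],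
   242892911555451351480040163756443102454804906816527719535770856873314111999048679424, 121476105789576006123623024831445389008024506196701771295733981008404730705126359040, [[], [11, 2050, 2, 11], [], [9, 11], [], [], [11], [], [], [], [], [], [], [], [], [], [], [], [], [], [], [], [], [], [], [11, 4], [2059, 2], [2, 4105, 2], [], [], [], [2059, 2], [], [2, 9], [2048, 4105, 2], [], [], [], [2057, 2048], [2048, 9], [], [], [], [], [], [2048, 2057, 2], [2048, 4096], [], [], [], [], [], [], [], [], [], []], 156105216391661473312724200102777920990220288, 8⟩

theorem rep7_39 : RepT 7 (leOf 7 587) :=
  TData.repT_of_trans (T := dT7_39) (by decide +kernel) (by decide +kernel)

end Vale.Agent.Lib.P183.Cert
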