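import Vale.Agent.Lib.P183.Cert.Trans
import Vale.Agent.Lib.P183.Cert.Table

/-! Generated: an algebra for lattice 41 on 7 elements. -/

namespace Vale.Agent.Lib.P183.Cert

/-- Data for lattice 41 on 7 elements. -/
def dT7_41 : TData :=
  ⟨⟨24, 7, [2671762690903001009226076473992249205371133278994144193250291705384516160270584791041, 2429018029408567724422052083828958334355246152362630092784311582601492733301895462916, 2550286657471112847287563823812667797885369695026130789675102798375725266563145682946, 2550286657471112847287563823812667797885369695026130789675102798375725266563145682946, 2307423352507249090652436276620638588366215150975893127505247861411380052382304985091, 2307423352507249090652436276620638588366215150975893127505247861411380052382304985091, 1335881356300824258372030454097682955418394870794990686457793564342939927593495875596, 1335881356300824258372030454097682955418394870794990686457793564342939927593495875596, 1700191095338469954468224321901216885467907624043764090373094664516469881686586302464, 1457357469332708108880241020210464000294376998673546424733960371848086438131965935616],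
    [2793238825633532367252271474308146955712771738768198951305317941842494364855943827456, 1335881356300824258372030454097682955418394805444821606514575567168673927158736883712, 485667273717241175845207821195669949646559039282671384466244156783726499067930349568, 728767684696602347284872494925125405317822272621581352533353860919357491320178348032, 364339367333175733142543079964475095656245837669732556710012429126493390946116304896, 121535405811509819510190796979898498640630157920398753356507993687211205714797137920, 0]⟩,
   8, 728678734666354054440120510105232000147188488445078365709738500766464248617445101568, 485785815872129847098555052122613550679800850996346081636174027098844029885010153472, [], [[], [12], [22, 12], [14, 2], [16, 5], [14, 12, 15], [9, 23, 13]],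
   0, 0, [[], [19, 2, 4113, 6], [19, 2], [19, 2065, 2, 4102], [19, 2048, 4113, 6, 8], [19, 2065, 4, 4], [0, 2, 4115, 6, 8, 10257, 4096], [17, 2, 4115, 2, 4102], [19, 2065, 2, 2054, 6], [19, 2, 4096, 6161, 8, 8], [19, 2], [17, 2048, 4115, 4102, 2, 6144, 6156], [], [0, 2, 4113, 6], [19, 2], [19, 2065], [19, 2, 4113, 4, 4], [19, 2065, 4, 4, 6152], [19, 2, 4, 6161, 4096], [17, 2, 4115, 2, 6146, 6144], [19, 2065, 4, 4], [19, 2048, 2052, 6144, 8209, 10, 10], [17], [17, 2048, 4115, 4102, 2, 6144], [], [], [], [], [], [], [], [], [], [], [], [], [], [], [], [], [], [4096, 2054, 10244, 2, 2062], [6148, 2, 10257, 12296, 2, 12302, 12], [4096, 10246, 4096, 4106], [], [], [], [4, 6148, 2048, 8202, 10], [], [], [], [], [], [], [4098, 2048, 10250, 6, 14344, 14], [], [], [8, 4102, 12296, 6], [], [], [], [6, 8198, 4, 4102], [], [6148, 10242, 2052], [], [], [], [], [], [], [], [], []], 2793238825633532367252271474308146955712771738768198951305317941842494364855943827456, 24⟩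

theorem rep7_41 : RepT 7 (leOf 7 363) :=
  TData.repT_of_trans (T := dT7_41) (by decide +kernel) (by decide +kernel)

end Vale.Agent.Lib.P183.Cert
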