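import Vale.Agent.Lib.P183.Cert.Trans
import Vale.Agent.Lib.P183.Cert.Table

/-! Generated: an algebra for lattice 5 on 7 elements. -/

namespace Vale.Agent.Lib.P183.Cert

/-- Data for lattice 5 on 7 elements. -/
def dT7_5 : TData :=
  ⟨⟨12, 7, [38116942657037019465638886024062405980161, 43564119957002411038118883636604104081411, 54457145329095633516273360592063954960386, 49015285590071280085544355730062586183686, 1329228075013078387168144722560548864],
    [59902991779343962382269386197061116891136, 49012626809640365429237765723043888365568, 27226579309450899163124224102067968413696, 21788705632058836032392929843675802898432, 2660403340595641000886869246508797952, 2658780668599162736543389537582190592, 0]⟩,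
   4, 1329228154299278787813637621238730752, 16336212717392218410220671569375703076864, [], [[], [3], [4], [5], [11], [11, 5], [6, 7]],
   0, 0, [[], [9, 2], [0, 2, 4105, 6, 2], [], [], [], [9, 2, 9, 6, 2048], [9, 2, 9, 2048], [9, 2, 2, 6148], [9, 2, 9, 6, 2048, 6148], [9, 2048, 4100, 6], [], [], [], [], [], [], [], [], [], [], [2048, 2048], [2048, 2048, 2054], [2048, 4], [4098, 2, 6148], [], [], [2, 4105, 4], [], [2048], [2048], [], [], [], [2057, 2, 6148, 4], [2048], [], [], [], [], [], [2057, 4098, 2, 6152], [2048], [], [], [], [], [], [4105, 4, 4104], [], [], [], [], [], [], [], [], [], [], [], []], 59902991779343962382269386197061116891136, 12⟩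

theorem rep7_5 : RepT 7 (leOf 7 896) :=
  TData.repT_of_trans (T := dT7_5) (by decide +kernel) (by decide +kernel)

end Vale.Agent.Lib.P183.Cert
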