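import Vale.Agent.Lib.P183.Cert.Core

/-! Checker for small algebras: every principal congruence and every join of two of the listed
partitions is computed by repeated merging of classes. -/

namespace Vale.Agent.Lib.P183.Cert

/-- The table with entries `f i, f (i+1), …` (`c` of them). -/
def build (f : Nat → Nat) : Nat → Nat → Nat
  | _, 0 => 0
  | i, c + 1 => Nat.add (f i) (Nat.mul 4096 (build f (i + 1) c))

theorem get_add_mul_zero {a b : Nat} (ha : a < 4096) : get (Nat.add a (Nat.mul 4096 b)) 0 = a := by
  have h1 : (a + 4096 * b) &&& 4095 = (a + 4096 * b) % 4096 := by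
    have := Nat.and_two_pow_sub_one_eq_mod (a + 4096 * b) 12
    simpa using this
  show ((a + 4096 * b) >>> (12 * 0)) &&& 4095 = a
  simp only [Nat.mul_zero, Nat.shiftRight_zero]
  rw [h1, Nat.add_mul_mod_self_left, Nat.mod_eq_of_lt ha]

theorem get_add_mul_succ {a b : Nat} (ha : a < 4096) (j : Nat) :
    get (Nat.add a (Nat.mul 4096 b)) (j + 1) = get b j := by
  show ((a + 4096 * b) >>> (12 * (j + 1))) &&& 4095 = (b >>> (12 * j)) &&& 4095
  have h1 : 12 * (j + 1) = 12 + 12 * j := by ring
  rw [h1, Nat.shiftRight_add]
  have h2 : (a + 4096 * b) >>> 12 = b := by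
    rw [Nat.shiftRight_eq_div_pow]
    have : (2 : Nat) ^ 12 = 4096 := by norm_num
    rw [this, Nat.add_mul_div_left _ _ (by norm_num), Nat.div_eq_of_lt ha, Nat.zero_add]
  rw [h2]

theorem get_build {f : Nat → Nat} (hf : ∀ i, f i < 4096) :
    ∀ (c i j : Nat), j < c → get (build f i c) j = f (i + j) := by
  intro c
  induction c with
  | zero => intro i j hj; exact absurd hj (Nat.not_lt_zero j)
  | succ c ih =>
    intro i j hj
    show get (Nat.add (f i) (Nat.mul 4096 (build f (i + 1) c))) j = _
    cases j with
    | zero => rw [get_add_mul_zero (hf i)]; rfl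
    | succ j =>
      rw [get_add_mul_succ (hf i), ih (i + 1) j (by omega)]
      congr 1
      omega

/-- Merge the classes of `u` and `v` in the table `lab` of chosen points. -/
def merge (k lab u v : Nat) : Nat :=
  forceN (get lab u) fun a => forceN (get lab v) fun b =>
    cond (eqb a b) lab
      (build (fun i => forceN (get lab i) fun w => cond (eqb w a) b w) 0 k)

/-- Apply the operation `t` to every pair `(x, chosen point of x)` and merge the results. -/
def passOp (k t : Nat) : Nat → Nat → Nat
  | 0, lab => lab
  | x + 1, lab => passOp k t x (merge k lab (get t x) (get t (get lab x)))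

/-- Apply all operations once. -/
def passAll (k : Nat) : List Nat → Nat → Nat
  | [], lab => lab
  | t :: ts, lab => passAll k ts (passOp k t k lab)

/-- Repeat until stable. -/
def closeUp (k : Nat) (ops : List Nat) : Nat → Nat → Nat
  | 0, lab => lab
  | f + 1, lab => forceN (passAll k ops lab) fun l => cond (eqb l lab) lab (closeUp k ops f l)

/-- Merge every point with its chosen point in the partition `p`. -/
def mergePart (k p : Nat) : Nat → Nat → Nat
  | 0, lab => lab
  | z + 1, lab => mergePart k p z (merge k lab z (get p z))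

/-- The partition `p` refines the table `lab`. -/
def refines (k lab p : Nat) : Bool := allN (fun z => eqb (get lab z) (get lab (get p z))) k

/-- The identity table. -/
def idT (k : Nat) : Nat := build (fun i => i) 0 k

/-- The check of the pair `(x, y)`. -/
def pairChk (d : Data) (idt x y : Nat) : Bool :=
  forceN (firstIdx (fun a => eqb (get (d.part a) x) (get (d.part a) y)) d.n 0) fun c =>
    and (ltb c d.n) (and (eqb (get (d.part c) x) (get (d.part c) y))
      (refines d.k (closeUp d.k d.ops d.k (merge d.k idt x y)) (d.part c)))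

/-- The check of the join of the partitions `a` and `b`. -/
def joinChk (d : Data) (le : Nat → Nat → Bool) (idt a b : Nat) : Bool :=
  cond (le a b) true <| cond (le b a) true <|
    forceN (firstIdx (fun j => and (le a j) (le b j)) d.n 0) fun j =>
      and (ltb j d.n) <| and (le a j) <| and (le b j) <|
        refines d.k (closeUp d.k d.ops d.k
          (mergePart d.k (d.part b) d.k (mergePart d.k (d.part a) d.k idt))) (d.part j)

/-- The complete check for small algebras. -/
def chkSmall (d : Data) (le : Nat → Nat → Bool) : Bool :=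
  forceN (idT d.k) fun idt =>
    and (allN (fun x => allN (fun y => pairChk d idt x y) x) d.k)
      (allN (fun a => allN (fun b => joinChk d le idt a b) d.n) d.n)

section Sound

variable {k : Nat} [NeZero k] {θ : Setoid (Fin k)}

/-- The invariant: each point is related to its chosen point, which is a point. -/
def Inv (k : Nat) [NeZero k] (θ : Setoid (Fin k)) (lab : Nat) : Prop :=
  ∀ x, x < k → get lab x < k ∧ rel θ x (get lab x)

theorem merge_inv {lab u v : Nat} (h : Inv k θ lab) (hu : u < k) (hv : v < k)
    (huv : rel θ u v) : Inv k θ (merge k lab u v) := by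
  unfold merge
  rw [forceN_eq, forceN_eq]
  cases hab : eqb (get lab u) (get lab v)
  · rw [cond_false]
    intro x hx
    have hf : ∀ i, (fun i => forceN (get lab i) fun w =>
        cond (eqb w (get lab u)) (get lab v) w) i < 4096 := by
      intro i
      simp only [forceN_eq]
      cases eqb (get lab i) (get lab u)
      · exact get_lt _ _
      · exact get_lt _ _
    rw [get_build hf k 0 x hx, Nat.zero_add, forceN_eq]
    cases hw : eqb (get lab x) (get lab u)
    · rw [cond_false]
      exact h x hx
    · rw [cond_true]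
      refine ⟨(h v hv).1, ?_⟩
      have e := eqb_spec hw
      have h1 := (h x hx).2
      rw [e] at h1
      exact rel_trans h1 (rel_trans (rel_symm (h u hu).2) (rel_trans huv (h v hv).2))
  · rw [cond_true]
    exact h

theorem passOp_inv {ops : List Nat} (hθ : (algOf k ops).Compat θ) {t : Nat} (ht : t ∈ ops)
    (hlt : ∀ x, x < k → get t x < k) :
    ∀ (x lab : Nat), x ≤ k → Inv k θ lab → Inv k θ (passOp k t x lab) := by
  intro x
  induction x with
  | zero => intro lab _ h; exact h
  | succ x ih =>
    intro lab hx h
    have hxk : x < k := hx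
    refine ih _ (by omega) (merge_inv h (hlt _ hxk) (hlt _ (h x hxk).1) ?_)
    exact rel_op hθ ht hxk (h x hxk).1 (h x hxk).2

theorem passAll_inv {ops : List Nat} (hθ : (algOf k ops).Compat θ)
    (hlt : ∀ t ∈ ops, ∀ x, x < k → get t x < k) :
    ∀ (l : List Nat), (∀ t ∈ l, t ∈ ops) → ∀ lab, Inv k θ lab → Inv k θ (passAll k l lab) := by
  intro l
  induction l with
  | nil => intro _ lab h; exact h
  | cons t ts ih =>
    intro hl lab h
    have ht : t ∈ ops := hl t (by simp)
    exact ih (fun s hs => hl s (by simp [hs])) _ (passOp_inv hθ ht (hlt t ht) k lab le_rfl h)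

theorem closeUp_inv {ops : List Nat} (hθ : (algOf k ops).Compat θ)
    (hlt : ∀ t ∈ ops, ∀ x, x < k → get t x < k) :
    ∀ (f lab : Nat), Inv k θ lab → Inv k θ (closeUp k ops f lab) := by
  intro f
  induction f with
  | zero => intro lab h; exact h
  | succ f ih =>
    intro lab h
    show Inv k θ (forceN (passAll k ops lab) fun l => cond (eqb l lab) lab (closeUp k ops f l))
    rw [forceN_eq]
    cases eqb (passAll k ops lab) lab
    · exact ih _ (passAll_inv hθ hlt ops (fun _ h => h) _ h)
    · exact h

theorem mergePart_inv {p : Nat} (hp : ∀ z, z < k → get p z < k ∧ rel θ z (get p z)) :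
    ∀ (z lab : Nat), z ≤ k → Inv k θ lab → Inv k θ (mergePart k p z lab) := by
  intro z
  induction z with
  | zero => intro lab _ h; exact h
  | succ z ih =>
    intro lab hz h
    have hzk : z < k := hz
    exact ih _ (by omega) (merge_inv h hzk (hp z hzk).1 (hp z hzk).2)

theorem idT_inv (hk : k ≤ 4096) : Inv k θ (idT k) := by
  intro x hx
  have : get (idT k) x = x := by
    have hf : ∀ i, (fun i => i % 4096) i < 4096 := fun i => Nat.mod_lt _ (by norm_num)
    have h1 : idT k = build (fun i => i) 0 k := rfl
    have h2 : ∀ (c i j : Nat), i + c ≤ 4096 → j < c → get (build (fun i => i) i c) j = i + j := by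
      intro c
      induction c with
      | zero => intro i j _ hj; exact absurd hj (Nat.not_lt_zero j)
      | succ c ih =>
        intro i j hic hj
        show get (Nat.add i (Nat.mul 4096 (build (fun i => i) (i + 1) c))) j = _
        cases j with
        | zero =>
          rw [get_add_mul_zero (by omega)]
          rfl
        | succ j =>
          rw [get_add_mul_succ (by omega), ih (i + 1) j (by omega) (by omega)]
          omega
    rw [h1, h2 k 0 x (by omega) hx, Nat.zero_add]
  rw [this]
  exact ⟨hx, rel_refl x⟩

theorem refines_le {lab p : Nat} (h : Inv k θ lab) (hr : refines k lab p = true) :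
    partS k p ≤ θ := by
  intro x y hxy
  have hxy' : get p x.val = get p y.val := hxy
  have h1 := eqb_spec (allN_spec hr x.val x.isLt)
  have h2 := eqb_spec (allN_spec hr y.val y.isLt)
  have h3 : get lab x.val = get lab y.val := by rw [h1, h2, hxy']
  have h4 := (h x.val x.isLt).2
  have h5 := (h y.val y.isLt).2
  rw [h3] at h4
  exact (rel_iff x y).1 (rel_trans h4 (rel_symm h5))

end Sound

section Spec

variable {d : Data} {le : Nat → Nat → Bool} [NeZero d.k]

theorem pairChk_spec (hc : Common d le) {θ : Setoid (Fin d.k)}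
    (hθ : (algOf d.k d.ops).Compat θ) {x y : Nat} (hx : x < d.k) (hy : y < d.k)
    (h : pairChk d (idT d.k) x y = true) (hr : rel θ x y) :
    ∃ c, c < d.n ∧ get (d.part c) x = get (d.part c) y ∧ partS d.k (d.part c) ≤ θ := by
  unfold pairChk at h
  rw [forceN_eq] at h
  simp only [Bool.and_eq_true] at h
  obtain ⟨h1, h2, h3⟩ := h
  refine ⟨_, ltb_spec h1, eqb_spec h2, refines_le ?_ h3⟩
  exact closeUp_inv hθ hc.opsLt _ _ (merge_inv (idT_inv hc.kle) hx hy hr)

theorem joinChk_spec (hc : Common d le) {θ : Setoid (Fin d.k)}
    (hθ : (algOf d.k d.ops).Compat θ) {a c : Nat} (ha : a < d.n) (hcn : c < d.n)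
    (h : joinChk d le (idT d.k) a c = true)
    (hale : partS d.k (d.part a) ≤ θ) (hcle : partS d.k (d.part c) ≤ θ) :
    ∃ j, j < d.n ∧ le a j = true ∧ le c j = true ∧ partS d.k (d.part j) ≤ θ := by
  unfold joinChk at h
  cases hac : le a c
  · cases hca : le c a
    · rw [hac, hca, cond_false, cond_false, forceN_eq] at h
      simp only [Bool.and_eq_true] at h
      obtain ⟨h1, h2, h3, h4⟩ := h
      refine ⟨_, ltb_spec h1, h2, h3, refines_le ?_ h4⟩
      have hsrc : ∀ b, b < d.n → partS d.k (d.part b) ≤ θ →
          ∀ z, z < d.k → get (d.part b) z < d.k ∧ rel θ z (get (d.part b) z) := by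
        intro b hb hble z hz
        have hlt := hc.partLt b hb z hz
        refine ⟨hlt, ?_⟩
        have e : (partS d.k (d.part b)).r ⟨z, hz⟩ ⟨_, hlt⟩ := (hc.partIdem b hb z hz).symm
        exact (rel_iff ⟨z, hz⟩ ⟨_, hlt⟩).2 (hble e)
      exact closeUp_inv hθ hc.opsLt _ _
        (mergePart_inv (hsrc c hcn hcle) _ _ le_rfl
          (mergePart_inv (hsrc a ha hale) _ _ le_rfl (idT_inv hc.kle)))
    · exact ⟨a, ha, hc.leRefl a ha, hca, hale⟩
  · exact ⟨c, hcn, hac, hc.leRefl c hcn, hcle⟩

theorem compl_of_chkSmall (hc : Common d le) (h : chkSmall d le = true) : Compl d le := by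
  unfold chkSmall at h
  rw [forceN_eq, Bool.and_eq_true] at h
  obtain ⟨hp, hj⟩ := h
  intro θ hθ
  refine ⟨?_, fun a c ha hcn hale hcle =>
    joinChk_spec hc hθ ha hcn (allN_spec (allN_spec hj a ha) c hcn) hale hcle⟩
  intro x y hx hy hr
  rcases lt_trichotomy x y with hlt | heq | hlt
  · obtain ⟨c, h1, h2, h3⟩ := pairChk_spec hc hθ hy hx
      (allN_spec (allN_spec hp y hy) x hlt) (rel_symm hr)
    exact ⟨c, h1, h2.symm, h3⟩
  · subst heq
    refine ⟨0, hc.npos, rfl, fun u v huv => ?_⟩
    have huv' : get (d.part 0) u.val = get (d.part 0) v.val := huv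
    rw [hc.partZero _ u.isLt, hc.partZero _ v.isLt] at huv'
    rw [Fin.ext huv']
  · exact pairChk_spec hc hθ hx hy (allN_spec (allN_spec hp x hx) y hlt) hr

end Spec

theorem repT_of_small {d : Data} {le : Nat → Nat → Bool}
    (h1 : chkCommon d le = true) (h2 : chkSmall d le = true) : RepT d.n le := by
  have hc := chkCommon_spec h1
  have : NeZero d.k := ⟨Nat.pos_iff_ne_zero.1 hc.kpos⟩
  exact repT_of_compl hc (compl_of_chkSmall hc h2)

end Vale.Agent.Lib.P183.Cert
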