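import Vale.Agent.Lib.P183.Cert.Small

/-! Checker for algebras containing a transitive permutation group: a congruence is determined by
the class of the point `0`, and these classes are computed by orbit enumeration. -/

namespace Vale.Agent.Lib.P183.Cert

/-- The additional data of a certificate for an algebra with a transitive group. -/
structure TData where
  /-- The common data. -/
  d : Data
  /-- The first `np` operations are permutations: `i` and `i xor 1` are mutually inverse. -/
  np : Nat
  /-- For each point other than `0`, the number of an operation moving it closer to `0`. -/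
  par : Nat
  /-- The distance to `0` along these operations. -/
  rk : Nat
  /-- Operations used in the enumeration of classes. -/
  hs : List Nat
  /-- For each lattice element, points in the class of `0` that generate it. -/
  roots : List (List Nat)
  /-- For each point, zero or one plus the number of an operation in `hs` fixing `0` and moving it
  closer to a chosen point of its orbit. -/
  orb : Nat
  /-- The distance along these operations. -/
  ork : Nat
  /-- Programs deriving the roots from a point or from other roots. -/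
  progs : List (List Nat)
  /-- For each point, the number of its program. -/
  pidx : Nat
  /-- The programs for joins are numbered from here on. -/
  jbase : Nat

namespace TData

/-- Operation number `i`. -/
def op (T : TData) (i : Nat) : Nat := nth T.d.ops i

/-- The roots of `a`. -/
def root (T : TData) (a : Nat) : List Nat := T.roots.getD a []

/-- Bring the pair `(u, v)` to a pair `(0, w)` by permutations, and return `w`. -/
def redF (T : TData) : Nat → Nat → Nat → Nat
  | 0, _, v => v
  | f + 1, u, v =>
    cond (eqb u 0) v (forceN (get T.par u) fun i =>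
      forceN (get (T.op i) u) fun u' => forceN (get (T.op i) v) fun v' => T.redF f u' v')

/-- Bring the pair `(u, v)` to a pair `(0, w)` by permutations, and return `w`. -/
def red (T : TData) (u v : Nat) : Nat := T.redF (get T.rk u) u v

/-- The new points obtained from `y`: if `z` and `y` are in the class of `0`, then so is `red z y`;
if `y` is in the class of `0` then the operation `t` gives the pair `(t 0, t y)`. -/
def cands (T : TData) (zs : List Nat) (y : Nat) : List Nat :=
  (zs.map fun z => T.red z y) ++ T.hs.map fun t => T.red (get t 0) (get t y)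

/-- Test of bit `x`. -/
def bitB (vis x : Nat) : Bool := eqb (Nat.land (Nat.shiftRight vis x) 1) 1

/-- Setting bit `x`. -/
def setB (vis x : Nat) : Nat := Nat.lor vis (Nat.shiftLeft 1 x)

/-- Add new points to the visited set and to the work list. -/
def addAll : List Nat → Nat → List Nat → Nat × List Nat
  | [], vis, w => (vis, w)
  | c :: cs, vis, w =>
    forceN c fun c' =>
      cond (bitB vis c') (addAll cs vis w)
        (forceN (setB vis c') fun v' => addAll cs v' (c' :: w))

/-- The enumeration of the class generated by `zs`. -/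
def clos (T : TData) (zs : List Nat) : Nat → Nat → List Nat → Nat
  | 0, vis, _ => vis
  | _ + 1, vis, [] => vis
  | f + 1, vis, y :: w =>
    match addAll (T.cands zs y) vis w with
    | (v', w') => T.clos zs f v' w'

/-- The class generated by `zs`, as a bit set. -/
def blockOf (T : TData) (zs : List Nat) (f : Nat) : Nat :=
  match addAll zs 1 [0] with
  | (v, w) => T.clos zs f v w

/-- Program number `i`. -/
def prog (T : TData) (i : Nat) : List Nat :=
  match T.progs.drop i with
  | [] => []
  | p :: _ => p

/-- One step of a program: the code says whether to combine two known points, or to apply an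
operation to a known point. -/
def stepVal (T : TData) (s : Nat) (known : List Nat) : Nat :=
  forceN (Nat.mod (Nat.div s 2) 1024) fun i =>
    forceN (nth known (Nat.div s 2048)) fun b =>
      cond (eqb (Nat.mod s 2) 0) (T.red (nth known i) b)
        (cond (ltb i T.d.ops.length) (T.red (get (T.op i) 0) (get (T.op i) b)) 0)

/-- Run a program; at the end all of `rs` must be known. -/
def runChk (T : TData) (rs : List Nat) : List Nat → List Nat → Bool
  | [], known => rs.all fun r => known.any (eqb r)
  | s :: ss, known => forceN (T.stepVal s known) fun c => T.runChk rs ss (c :: known)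

/-- The first lattice element whose class of `0` contains `y`. -/
def label (T : TData) (y : Nat) : Nat :=
  firstIdx (fun a => eqb (get (T.d.part a) y) (get (T.d.part a) 0)) T.d.n 0

/-- The check for the point `y`. -/
def chkPoint (T : TData) (y : Nat) : Bool :=
  forceN (T.label y) fun c =>
    and (ltb c T.d.n) <| and (eqb (get (T.d.part c) y) (get (T.d.part c) 0)) <|
      forceN (get T.orb y) fun e =>
        cond (eqb e 0) (T.runChk (T.root c) (T.prog (get T.pidx y)) [y])
          (and (ltb (Nat.sub e 1) T.hs.length) <|
            forceN (T.hs.getD (Nat.sub e 1) 0) fun t =>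
              and (eqb (get t 0) 0) <| and (ltb (get T.ork (get t y)) (get T.ork y)) <|
                eqb (T.label (get t y)) c)

/-- The check that the class generated by the root of `a` is the whole class of `a`. -/
def chkRoot (T : TData) (a : Nat) : Bool :=
  and ((T.root a).all fun r =>
      and (ltb r T.d.k) (eqb (get (T.d.part a) r) (get (T.d.part a) 0))) <|
    forceN (T.blockOf (T.root a) T.d.k) fun b =>
      allN (fun x => cond (eqb (get (T.d.part a) x) (get (T.d.part a) 0)) (bitB b x) true) T.d.k

/-- The check of the join of `a` and `b`. -/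
def chkJoin (T : TData) (le : Nat → Nat → Bool) (a b : Nat) : Bool :=
  cond (le a b) true <| cond (le b a) true <|
    forceN (firstIdx (fun j => and (le a j) (le b j)) T.d.n 0) fun j =>
      and (ltb j T.d.n) <| and (le a j) <| and (le b j) <|
        T.runChk (T.root j) (T.prog (Nat.add T.jbase (Nat.add (Nat.mul T.d.n a) b)))
          (T.root a ++ T.root b)

/-- The check of the permutations and of the distances. -/
def chkPerm (T : TData) : Bool :=
  and (allN (fun i => and (ltb i T.d.ops.length) <| and (ltb (Nat.xor i 1) T.d.ops.length) <|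
      allN (fun x => eqb (get (T.op (Nat.xor i 1)) (get (T.op i) x)) x) T.d.k) T.np) <|
    and (allN (fun x => cond (eqb x 0) true
      (forceN (get T.par x) fun i => and (ltb i T.np) (ltb (get T.rk (get (T.op i) x)) (get T.rk x))))
      T.d.k) <|
    T.hs.all fun t => T.d.ops.any fun s => eqb s t

/-- The check for an algebra with a transitive group in which the principal congruences of the
pairs `(y, 0)` and the joins are computed by merging of classes. -/
def chkHybrid (T : TData) (le : Nat → Nat → Bool) : Bool :=
  forceN (idT T.d.k) fun idt =>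
    and T.chkPerm <|
      and (allN (fun y => cond (eqb y 0) true (pairChk T.d idt y 0)) T.d.k) <|
        allN (fun a => allN (fun b => joinChk T.d le idt a b) T.d.n) T.d.n

/-- The complete check for an algebra with a transitive group. -/
def chkTrans (T : TData) (le : Nat → Nat → Bool) : Bool :=
  and T.chkPerm <|
    and (allN T.chkPoint T.d.k) <| and (allN T.chkRoot T.d.n) <|
      allN (fun a => allN (fun b => T.chkJoin le a b) T.d.n) T.d.n

theorem bitB_eq (vis x : Nat) : bitB vis x = Nat.testBit vis x := by
  unfold bitB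
  rw [Nat.testBit_eq_decide_div_mod_eq]
  have h : Nat.land (Nat.shiftRight vis x) 1 = vis / 2 ^ x % 2 := by
    show (vis >>> x) &&& 1 = _
    rw [Nat.and_one_is_mod, Nat.shiftRight_eq_div_pow]
  rw [h]
  cases h2 : decide (vis / 2 ^ x % 2 = 1)
  · have : vis / 2 ^ x % 2 ≠ 1 := of_decide_eq_false h2
    exact (Bool.eq_false_iff.2 fun h3 => this (eqb_spec h3))
  · have : vis / 2 ^ x % 2 = 1 := of_decide_eq_true h2
    rw [this]
    rfl

theorem bitB_setB {vis c x : Nat} (h : bitB (setB vis c) x = true) : bitB vis x = true ∨ x = c := by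
  rw [bitB_eq] at h ⊢
  have : setB vis c = vis ||| (1 <<< c) := rfl
  rw [this, Nat.testBit_or, Bool.or_eq_true, Nat.one_shiftLeft, Nat.testBit_two_pow] at h
  rcases h with h | h
  · exact Or.inl h
  · right
    exact (of_decide_eq_true h).symm

theorem bitB_one {x : Nat} (h : bitB 1 x = true) : x = 0 := by
  rw [bitB_eq] at h
  cases x with
  | zero => rfl
  | succ x =>
    exfalso
    have : Nat.testBit 1 (x + 1) = false := by
      rw [Nat.testBit_succ]
      simp
    rw [this] at h
    exact absurd h (by simp)

section Sound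

variable {T : TData} {le : Nat → Nat → Bool}

/-- The unpacked check of the permutations. -/
structure Perms (T : TData) : Prop where
  mem : ∀ i, i < T.np → T.op i ∈ T.d.ops
  memInv : ∀ i, i < T.np → T.op (Nat.xor i 1) ∈ T.d.ops
  inv : ∀ i, i < T.np → ∀ x, x < T.d.k → get (T.op (Nat.xor i 1)) (get (T.op i) x) = x
  parLt : ∀ x, x < T.d.k → x ≠ 0 → get T.par x < T.np
  rkLt : ∀ x, x < T.d.k → x ≠ 0 → get T.rk (get (T.op (get T.par x)) x) < get T.rk x
  hsMem : ∀ t ∈ T.hs, t ∈ T.d.ops

theorem op_mem {i : Nat} (h : i < T.d.ops.length) : T.op i ∈ T.d.ops := nth_mem h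

theorem chkPerm_spec (h : T.chkPerm = true) : Perms T := by
  simp only [chkPerm, Bool.and_eq_true, List.all_eq_true] at h
  obtain ⟨h1, h2, h3⟩ := h
  refine
    { mem := fun i hi => op_mem (ltb_spec (by
        have := allN_spec h1 i hi
        simp only [Bool.and_eq_true] at this
        exact this.1))
      memInv := fun i hi => op_mem (ltb_spec (by
        have := allN_spec h1 i hi
        simp only [Bool.and_eq_true] at this
        exact this.2.1))
      inv := fun i hi x hx => by
        have := allN_spec h1 i hi
        simp only [Bool.and_eq_true] at this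
        exact eqb_spec (allN_spec this.2.2 x hx)
      parLt := fun x hx h0 => by
        have := allN_spec h2 x hx
        have h4 : eqb x 0 = false := by
          cases h5 : eqb x 0
          · rfl
          · exact absurd (eqb_spec h5) h0
        rw [h4, cond_false, forceN_eq, Bool.and_eq_true] at this
        exact ltb_spec this.1
      rkLt := fun x hx h0 => by
        have := allN_spec h2 x hx
        have h4 : eqb x 0 = false := by
          cases h5 : eqb x 0
          · rfl
          · exact absurd (eqb_spec h5) h0
        rw [h4, cond_false, forceN_eq, Bool.and_eq_true] at this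
        exact ltb_spec this.2
      hsMem := fun t ht => by
        have := h3 t ht
        obtain ⟨s, hs, he⟩ := List.any_eq_true.1 this
        rw [← eqb_spec he]
        exact hs }

variable [NeZero T.d.k]

/-- The reduction of pairs to pairs containing `0`, for any congruence. -/
theorem redF_spec (hc : Common T.d le) (hp : Perms T) {ψ : Setoid (Fin T.d.k)}
    (hψ : (algOf T.d.k T.d.ops).Compat ψ) :
    ∀ (f u v : Nat), u < T.d.k → v < T.d.k → get T.rk u ≤ f →
      (rel ψ u v ↔ rel ψ 0 (T.redF f u v)) ∧ T.redF f u v < T.d.k := by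
  intro f
  induction f with
  | zero =>
    intro u v hu hv hr
    have h0 : u = 0 := by
      by_contra hne
      have := hp.rkLt u hu hne
      omega
    subst h0
    exact ⟨Iff.rfl, hv⟩
  | succ f ih =>
    intro u v hu hv hr
    unfold redF
    by_cases h0 : u = 0
    · subst h0
      exact ⟨Iff.rfl, hv⟩
    · have h4 : eqb u 0 = false := by
        cases h5 : eqb u 0
        · rfl
        · exact absurd (eqb_spec h5) h0
      rw [h4, cond_false, forceN_eq, forceN_eq, forceN_eq]
      have hi := hp.parLt u hu h0
      have ht := hp.mem _ hi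
      have hti := hp.memInv _ hi
      have hlt := hp.rkLt u hu h0
      have hu' := hc.opsLt _ ht u hu
      have hv' := hc.opsLt _ ht v hv
      obtain ⟨h1, h2⟩ := ih _ _ hu' hv' (by omega)
      refine ⟨⟨fun h => h1.1 (rel_op hψ ht hu hv h), fun h => ?_⟩, h2⟩
      have h3 := rel_op hψ hti hu' hv' (h1.2 h)
      rwa [hp.inv _ hi u hu, hp.inv _ hi v hv] at h3

theorem red_spec (hc : Common T.d le) (hp : Perms T) {ψ : Setoid (Fin T.d.k)}
    (hψ : (algOf T.d.k T.d.ops).Compat ψ) {u v : Nat} (hu : u < T.d.k) (hv : v < T.d.k) :
    (rel ψ u v ↔ rel ψ 0 (T.red u v)) ∧ T.red u v < T.d.k :=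
  redF_spec hc hp hψ _ u v hu hv le_rfl

/-- Points known to be in the class of `0`. -/
def Good (T : TData) [NeZero T.d.k] (θ : Setoid (Fin T.d.k)) (x : Nat) : Prop :=
  x < T.d.k ∧ rel θ 0 x

theorem cands_good (hc : Common T.d le) (hp : Perms T) {θ : Setoid (Fin T.d.k)}
    (hθ : (algOf T.d.k T.d.ops).Compat θ) {zs : List Nat} (hz : ∀ z ∈ zs, Good T θ z) {y : Nat}
    (hy : Good T θ y) : ∀ c ∈ T.cands zs y, Good T θ c := by
  intro c hcand
  unfold cands at hcand
  rcases List.mem_append.1 hcand with h | h
  · obtain ⟨z, hzm, rfl⟩ := List.mem_map.1 h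
    have h1 := hz z hzm
    obtain ⟨h2, h3⟩ := red_spec hc hp hθ h1.1 hy.1
    exact ⟨h3, h2.1 (rel_trans (rel_symm h1.2) hy.2)⟩
  · obtain ⟨t, ht, rfl⟩ := List.mem_map.1 h
    have htm := hp.hsMem t ht
    have h1 := hc.opsLt t htm 0 hc.kpos
    have h2 := hc.opsLt t htm y hy.1
    obtain ⟨h3, h4⟩ := red_spec hc hp hθ h1 h2
    exact ⟨h4, h3.1 (rel_op hθ htm hc.kpos hy.1 hy.2)⟩

theorem addAll_good {θ : Setoid (Fin T.d.k)} :
    ∀ (cs : List Nat) (vis : Nat) (w : List Nat), (∀ c ∈ cs, Good T θ c) →
      (∀ x, bitB vis x = true → Good T θ x) → (∀ x ∈ w, Good T θ x) →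
      (∀ x, bitB (addAll cs vis w).1 x = true → Good T θ x) ∧
        ∀ x ∈ (addAll cs vis w).2, Good T θ x := by
  intro cs
  induction cs with
  | nil => intro vis w _ h1 h2; exact ⟨h1, h2⟩
  | cons c cs ih =>
    intro vis w hcs h1 h2
    have hc : Good T θ c := hcs c (by simp)
    have hcs' : ∀ c ∈ cs, Good T θ c := fun x hx => hcs x (by simp [hx])
    unfold addAll
    rw [forceN_eq]
    cases bitB vis c
    · rw [cond_false, forceN_eq]
      refine ih _ _ hcs' ?_ ?_
      · intro x hx
        rcases bitB_setB hx with h | h
        · exact h1 x h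
        · rw [h]; exact hc
      · intro x hx
        rcases List.mem_cons.1 hx with h | h
        · rw [h]; exact hc
        · exact h2 x h
    · rw [cond_true]
      exact ih _ _ hcs' h1 h2

theorem clos_good (hc : Common T.d le) (hp : Perms T) {θ : Setoid (Fin T.d.k)}
    (hθ : (algOf T.d.k T.d.ops).Compat θ) {zs : List Nat} (hz : ∀ z ∈ zs, Good T θ z) :
    ∀ (f vis : Nat) (w : List Nat), (∀ x, bitB vis x = true → Good T θ x) →
      (∀ x ∈ w, Good T θ x) → ∀ x, bitB (T.clos zs f vis w) x = true → Good T θ x := by
  intro f
  induction f with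
  | zero => intro vis w h1 _; exact h1
  | succ f ih =>
    intro vis w h1 h2
    cases w with
    | nil => exact h1
    | cons y w =>
      have hy : Good T θ y := h2 y (by simp)
      have h3 : ∀ x ∈ w, Good T θ x := fun x hx => h2 x (by simp [hx])
      have h4 := addAll_good (T.cands zs y) vis w (cands_good hc hp hθ hz hy) h1 h3
      unfold clos
      exact ih _ _ h4.1 h4.2

theorem blockOf_good (hc : Common T.d le) (hp : Perms T) {θ : Setoid (Fin T.d.k)}
    (hθ : (algOf T.d.k T.d.ops).Compat θ) {zs : List Nat} (hz : ∀ z ∈ zs, Good T θ z) (f : Nat) :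
    ∀ x, bitB (T.blockOf zs f) x = true → Good T θ x := by
  have h0 : ∀ x, bitB 1 x = true → Good T θ x := by
    intro x hx
    rw [bitB_one hx]
    exact ⟨hc.kpos, rel_refl 0⟩
  have h1 := addAll_good zs 1 [0] hz h0 (by
    intro x hx
    rw [List.mem_singleton] at hx
    rw [hx]
    exact ⟨hc.kpos, rel_refl 0⟩)
  unfold blockOf
  exact clos_good hc hp hθ hz f _ _ h1.1 h1.2

theorem stepVal_good (hc : Common T.d le) (hp : Perms T) {θ : Setoid (Fin T.d.k)}
    (hθ : (algOf T.d.k T.d.ops).Compat θ) {s : Nat} {known : List Nat}
    (hk : ∀ x ∈ known, Good T θ x) : Good T θ (T.stepVal s known) := by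
  have h0 : Good T θ 0 := ⟨hc.kpos, rel_refl 0⟩
  have hnth : ∀ i, Good T θ (nth known i) := by
    intro i
    rcases nth_mem_or (l := known) (i := i) with h | h
    · exact hk _ h
    · rw [h]; exact h0
  unfold stepVal
  rw [forceN_eq, forceN_eq]
  cases eqb (Nat.mod s 2) 0
  · rw [cond_false]
    cases hlt : ltb (Nat.mod (Nat.div s 2) 1024) T.d.ops.length
    · rw [cond_false]; exact h0
    · rw [cond_true]
      have htm := op_mem (T := T) (ltb_spec hlt)
      have hb := hnth (Nat.div s 2048)
      have h1 := hc.opsLt _ htm 0 hc.kpos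
      have h2 := hc.opsLt _ htm _ hb.1
      obtain ⟨h3, h4⟩ := red_spec hc hp hθ h1 h2
      exact ⟨h4, h3.1 (rel_op hθ htm hc.kpos hb.1 hb.2)⟩
  · rw [cond_true]
    have ha := hnth (Nat.mod (Nat.div s 2) 1024)
    have hb := hnth (Nat.div s 2048)
    obtain ⟨h3, h4⟩ := red_spec hc hp hθ ha.1 hb.1
    exact ⟨h4, h3.1 (rel_trans (rel_symm ha.2) hb.2)⟩

theorem runChk_good (hc : Common T.d le) (hp : Perms T) {θ : Setoid (Fin T.d.k)}
    (hθ : (algOf T.d.k T.d.ops).Compat θ) {rs : List Nat} :
    ∀ (ss known : List Nat), (∀ x ∈ known, Good T θ x) → T.runChk rs ss known = true →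
      ∀ r ∈ rs, Good T θ r := by
  intro ss
  induction ss with
  | nil =>
    intro known hk h r hr
    have h1 := List.all_eq_true.1 h r hr
    obtain ⟨x, hx, he⟩ := List.any_eq_true.1 h1
    rw [eqb_spec he]
    exact hk x hx
  | cons s ss ih =>
    intro known hk h
    unfold runChk at h
    rw [forceN_eq] at h
    refine ih _ ?_ h
    intro x hx
    rcases List.mem_cons.1 hx with hx | hx
    · rw [hx]
      exact stepVal_good hc hp hθ hk
    · exact hk x hx

theorem part_le_of_block (hc : Common T.d le) (hp : Perms T) {θ : Setoid (Fin T.d.k)}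
    (hθ : (algOf T.d.k T.d.ops).Compat θ) {a : Nat} (ha : a < T.d.n)
    (h : ∀ x, x < T.d.k → get (T.d.part a) x = get (T.d.part a) 0 → rel θ 0 x) :
    partS T.d.k (T.d.part a) ≤ θ := by
  intro x y hxy
  have hψ := compat_part hc ha
  obtain ⟨h1, h2⟩ := red_spec hc hp hψ x.isLt y.isLt
  obtain ⟨h3, _⟩ := red_spec hc hp hθ x.isLt y.isLt
  have h4 : rel (partS T.d.k (T.d.part a)) x.val y.val := (rel_iff x y).2 hxy
  have h5 := h1.1 h4
  rw [rel_partS hc.kpos h2] at h5
  exact (rel_iff x y).1 (h3.2 (h _ h2 h5.symm))

theorem rel_zero_of_part (hc : Common T.d le) {θ : Setoid (Fin T.d.k)} {a x : Nat}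
    (hx : x < T.d.k) (hle : partS T.d.k (T.d.part a) ≤ θ)
    (h : get (T.d.part a) x = get (T.d.part a) 0) : rel θ 0 x := by
  have h1 : (partS T.d.k (T.d.part a)).r ⟨0, hc.kpos⟩ ⟨x, hx⟩ := h.symm
  exact (rel_iff ⟨0, hc.kpos⟩ ⟨x, hx⟩).2 (hle h1)

theorem compl_of_chkTrans (hc : Common T.d le) (h : T.chkTrans le = true) : Compl T.d le := by
  unfold chkTrans at h
  simp only [Bool.and_eq_true] at h
  obtain ⟨hperm, hpoint, hroot, hjoin⟩ := h
  have hp := chkPerm_spec hperm
  intro θ hθ
  -- a root in the class of `0` generates the class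
  have hA : ∀ a, a < T.d.n → (∀ r ∈ T.root a, rel θ 0 r) → partS T.d.k (T.d.part a) ≤ θ := by
    intro a ha hr
    have h1 := allN_spec hroot a ha
    unfold chkRoot at h1
    rw [Bool.and_eq_true, forceN_eq, List.all_eq_true] at h1
    obtain ⟨h2, h4⟩ := h1
    refine part_le_of_block hc hp hθ ha fun x hx hxa => ?_
    have h5 := allN_spec h4 x hx
    rw [hxa, eqb_self, cond_true] at h5
    refine (blockOf_good hc hp hθ (zs := T.root a) ?_ _ x h5).2
    intro z hz
    have h6 := h2 z hz
    rw [Bool.and_eq_true] at h6
    exact ⟨ltb_spec h6.1, hr z hz⟩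
  -- a point in the class of `0` generates the class of its label
  have hB : ∀ (n y : Nat), get T.ork y ≤ n → y < T.d.k → rel θ 0 y →
      T.label y < T.d.n ∧ partS T.d.k (T.d.part (T.label y)) ≤ θ := by
    intro n
    induction n with
    | zero =>
      intro y hr hy hs
      have h1 := allN_spec hpoint y hy
      unfold chkPoint at h1
      rw [forceN_eq, Bool.and_eq_true, Bool.and_eq_true, forceN_eq] at h1
      obtain ⟨h2, _, h4⟩ := h1
      refine ⟨ltb_spec h2, ?_⟩
      cases he : eqb (get T.orb y) 0
      · rw [he, cond_false, Bool.and_eq_true, forceN_eq, Bool.and_eq_true, Bool.and_eq_true] at h4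
        have := ltb_spec h4.2.2.1
        omega
      · rw [he, cond_true] at h4
        refine hA _ (ltb_spec h2) fun r hr => ?_
        refine (runChk_good hc hp hθ _ [y] ?_ h4 r hr).2
        intro z hz
        rw [List.mem_singleton] at hz
        subst hz
        exact ⟨hy, hs⟩
    | succ n ih =>
      intro y hr hy hs
      have h1 := allN_spec hpoint y hy
      unfold chkPoint at h1
      rw [forceN_eq, Bool.and_eq_true, Bool.and_eq_true, forceN_eq] at h1
      obtain ⟨h2, _, h4⟩ := h1
      refine ⟨ltb_spec h2, ?_⟩
      cases he : eqb (get T.orb y) 0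
      · rw [he, cond_false, Bool.and_eq_true, forceN_eq, Bool.and_eq_true, Bool.and_eq_true] at h4
        obtain ⟨h5, h6, h7, h8⟩ := h4
        have hmem : T.hs.getD (Nat.sub (get T.orb y) 1) 0 ∈ T.hs := by
          have hl := ltb_spec h5
          have : T.hs.getD (Nat.sub (get T.orb y) 1) 0 = T.hs[Nat.sub (get T.orb y) 1] :=
            List.getD_eq_getElem _ _ hl
          rw [this]
          exact List.getElem_mem hl
        have hop := hp.hsMem _ hmem
        have h9 := hc.opsLt _ hop y hy
        have h10 := rel_op hθ hop hc.kpos hy hs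
        rw [eqb_spec h6] at h10
        have h11 := ih _ (by have := ltb_spec h7; omega) h9 h10
        rw [eqb_spec h8] at h11
        exact h11.2
      · rw [he, cond_true] at h4
        refine hA _ (ltb_spec h2) fun r hr => ?_
        refine (runChk_good hc hp hθ _ [y] ?_ h4 r hr).2
        intro z hz
        rw [List.mem_singleton] at hz
        subst hz
        exact ⟨hy, hs⟩
  refine ⟨?_, ?_⟩
  · intro x y hx hy hr
    obtain ⟨h1, h2⟩ := red_spec hc hp hθ hx hy
    have hz := h1.1 hr
    obtain ⟨h3, h4⟩ := hB _ _ le_rfl h2 hz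
    refine ⟨_, h3, ?_, h4⟩
    have h5 := allN_spec hpoint _ h2
    unfold chkPoint at h5
    rw [forceN_eq, Bool.and_eq_true, Bool.and_eq_true] at h5
    have h6 := eqb_spec h5.2.1
    have hψ := compat_part hc h3
    obtain ⟨h7, _⟩ := red_spec hc hp hψ hx hy
    have h8 : rel (partS T.d.k (T.d.part (T.label (T.red x y)))) 0 (T.red x y) :=
      (rel_partS hc.kpos h2).2 h6.symm
    exact (rel_partS hx hy).1 (h7.2 h8)
  · intro a c ha hcn hale hcle
    have := allN_spec (allN_spec hjoin a ha) c hcn
    unfold chkJoin at this
    cases hac : le a c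
    · cases hca : le c a
      · rw [hac, hca, cond_false, cond_false, forceN_eq] at this
        simp only [Bool.and_eq_true] at this
        obtain ⟨h1, h2, h3, h4⟩ := this
        refine ⟨_, ltb_spec h1, h2, h3, hA _ (ltb_spec h1) fun r hr' => ?_⟩
        have hr : ∀ b, b < T.d.n → partS T.d.k (T.d.part b) ≤ θ → ∀ r ∈ T.root b, Good T θ r := by
          intro b hb hble r hr
          have h5 := allN_spec hroot b hb
          unfold chkRoot at h5
          rw [Bool.and_eq_true, List.all_eq_true] at h5
          have h6 := h5.1 r hr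
          rw [Bool.and_eq_true] at h6
          exact ⟨ltb_spec h6.1, rel_zero_of_part hc (ltb_spec h6.1) hble (eqb_spec h6.2)⟩
        refine (runChk_good hc hp hθ _ (T.root a ++ T.root c) ?_ h4 r hr').2
        intro z hz
        rcases List.mem_append.1 hz with hz | hz
        · exact hr a ha hale z hz
        · exact hr c hcn hcle z hz
      · exact ⟨a, ha, hc.leRefl a ha, hca, hale⟩
    · exact ⟨c, hcn, hac, hc.leRefl c hcn, hcle⟩

theorem compl_of_chkHybrid (hc : Common T.d le) (h : T.chkHybrid le = true) : Compl T.d le := by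
  unfold chkHybrid at h
  rw [forceN_eq] at h
  simp only [Bool.and_eq_true] at h
  obtain ⟨hperm, hpoint, hjoin⟩ := h
  have hp := chkPerm_spec hperm
  intro θ hθ
  refine ⟨?_, fun a c ha hcn hale hcle =>
    joinChk_spec hc hθ ha hcn (allN_spec (allN_spec hjoin a ha) c hcn) hale hcle⟩
  intro x y hx hy hr
  obtain ⟨h1, h2⟩ := red_spec hc hp hθ hx hy
  have hz := h1.1 hr
  by_cases hz0 : T.red x y = 0
  · have hψ := compat_part hc hc.npos
    obtain ⟨h7, _⟩ := red_spec hc hp hψ hx hy
    refine ⟨0, hc.npos, ?_, fun u v huv => ?_⟩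
    · rw [hz0] at h7
      exact (rel_partS hx hy).1 (h7.2 (rel_refl 0))
    · have huv' : get (T.d.part 0) u.val = get (T.d.part 0) v.val := huv
      rw [hc.partZero _ u.isLt, hc.partZero _ v.isLt] at huv'
      rw [Fin.ext huv']
  · have h3 := allN_spec hpoint _ h2
    have h4 : eqb (T.red x y) 0 = false := by
      cases h5 : eqb (T.red x y) 0
      · rfl
      · exact absurd (eqb_spec h5) hz0
    rw [h4, cond_false] at h3
    obtain ⟨c, hcn, hcz, hcle⟩ := pairChk_spec hc hθ h2 hc.kpos h3 (rel_symm hz)
    refine ⟨c, hcn, ?_, hcle⟩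
    have hψ := compat_part hc hcn
    obtain ⟨h7, _⟩ := red_spec hc hp hψ hx hy
    have h8 : rel (partS T.d.k (T.d.part c)) 0 (T.red x y) :=
      (rel_partS hc.kpos h2).2 hcz.symm
    exact (rel_partS hx hy).1 (h7.2 h8)

end Sound

theorem repT_of_hybrid {T : TData} {le : Nat → Nat → Bool}
    (h1 : chkCommon T.d le = true) (h2 : T.chkHybrid le = true) : RepT T.d.n le := by
  have hc := chkCommon_spec h1
  have : NeZero T.d.k := ⟨Nat.pos_iff_ne_zero.1 hc.kpos⟩
  exact repT_of_compl hc (compl_of_chkHybrid hc h2)

theorem repT_of_trans {T : TData} {le : Nat → Nat → Bool}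
    (h1 : chkCommon T.d le = true) (h2 : T.chkTrans le = true) : RepT T.d.n le := by
  have hc := chkCommon_spec h1
  have : NeZero T.d.k := ⟨Nat.pos_iff_ne_zero.1 hc.kpos⟩
  exact repT_of_compl hc (compl_of_chkTrans hc h2)

theorem repT_of_parts {T : TData} {le : Nat → Nat → Bool}
    (a : chkRange T.d = true) (b : chkPartOps T.d = true) (c : chkOrder T.d le = true)
    (d : T.chkPerm = true) (e : allN T.chkPoint T.d.k = true) (f : allN T.chkRoot T.d.n = true)
    (g : allN (fun a => allN (fun b => T.chkJoin le a b) T.d.n) T.d.n = true) : RepT T.d.n le := by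
  refine repT_of_trans ?_ ?_
  · simp only [chkCommon, a, b, c, Bool.and_self]
  · simp only [chkTrans, d, e, f, g, Bool.and_self]

end TData

end Vale.Agent.Lib.P183.Cert
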